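import Vale.Agent.P004E.Blk
import Vale.Agent.P004G.H357.Bar

/-!
# P004E, module M (part 1): moments of the truncated inverse
-/

open Finset Real

namespace P004E.M

open P004.H293
open P004G.H357 (exists_psi)

/-- the linear form -/
noncomputable def lin (S : Finset ℕ) (a : ℕ → ℝ) (ω : ℕ → ℝ) : ℝ := ∑ p ∈ S, a p * ω p

lemma E1_exp_le {p : ℕ} (hp : 1 ≤ p) (a : ℝ) : E1 p (fun x => Real.exp (a * x)) ≤
    Real.exp (a ^ 2 / 2) := by
  have hp' : (1 : ℝ) ≤ p := by exact_mod_cast hp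
  have h1 : (1 : ℝ) / p ≤ 1 := by rw [div_le_one (by linarith)]; exact hp'
  have h0 : (0 : ℝ) ≤ 1 / p := by positivity
  have h2 : (1 : ℝ) ≤ Real.cosh a := Real.one_le_cosh a
  have h3 : E1 p (fun x => Real.exp (a * x)) = 1 / p + (1 - 1 / p) * Real.cosh a := by
    unfold E1
    rw [Real.cosh_eq]
    simp only [mul_zero, Real.exp_zero, mul_one, mul_neg]
    ring
  rw [h3]
  calc 1 / (p : ℝ) + (1 - 1 / p) * Real.cosh a ≤ 1 / p * Real.cosh a + (1 - 1 / p) * Real.cosh a := by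
        have : 1 / (p : ℝ) * 1 ≤ 1 / p * Real.cosh a := by gcongr
        linarith
    _ = Real.cosh a := by ring
    _ ≤ _ := Real.cosh_le_exp_half_sq a

lemma E1_exp_nonneg {p : ℕ} (hp : 1 ≤ p) (a : ℝ) : 0 ≤ E1 p (fun x => Real.exp (a * x)) := by
  have := E1_mono hp (G := fun _ => 0) (H := fun x => Real.exp (a * x))
    (fun x _ => (Real.exp_pos _).le)
  rwa [E1_const] at this

lemma EE_exp_lin {S : Finset ℕ} (hS : ∀ p ∈ S, 1 ≤ p) (a : ℕ → ℝ) (t : ℝ) :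
    EE S (fun ω => Real.exp (t * lin S a ω)) ≤ Real.exp (t ^ 2 * (∑ p ∈ S, a p ^ 2) / 2) := by
  have h1 : (fun ω : ℕ → ℝ => Real.exp (t * lin S a ω)) =
      fun ω => ∏ p ∈ S, Real.exp ((t * a p) * ω p) := by
    funext ω
    rw [← Real.exp_sum]
    congr 1
    unfold lin
    rw [Finset.mul_sum]
    exact Finset.sum_congr rfl fun p _ => by ring
  rw [h1, EE_prod S (fun p x => Real.exp ((t * a p) * x))]
  have h2 : t ^ 2 * (∑ p ∈ S, a p ^ 2) / 2 = ∑ p ∈ S, (t * a p) ^ 2 / 2 := by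
    rw [Finset.mul_sum, Finset.sum_div]
    exact Finset.sum_congr rfl fun p _ => by ring
  rw [h2, Real.exp_sum]
  exact Finset.prod_le_prod (fun p hp => E1_exp_nonneg (hS p hp) _)
    fun p hp => E1_exp_le (hS p hp) _

lemma EE_exp_abs {S : Finset ℕ} (hS : ∀ p ∈ S, 1 ≤ p) (a : ℕ → ℝ) {t V : ℝ}
    (hV : ∑ p ∈ S, a p ^ 2 ≤ V) (ht : 0 ≤ t) :
    EE S (fun ω => Real.exp (t * |lin S a ω|)) ≤ 2 * Real.exp (t ^ 2 * V / 2) := by
  have h1 : EE S (fun ω => Real.exp (t * |lin S a ω|)) ≤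
      EE S (fun ω => Real.exp (t * lin S a ω) + Real.exp (-t * lin S a ω)) := by
    refine EE_mono hS fun ω _ => ?_
    rcases abs_cases (lin S a ω) with h | h
    · rw [h.1]
      linarith [Real.exp_pos (-t * lin S a ω)]
    · rw [h.1]
      have : t * -lin S a ω = -t * lin S a ω := by ring
      rw [this]
      linarith [Real.exp_pos (t * lin S a ω)]
  rw [EE_add] at h1
  have h2 := EE_exp_lin hS a t
  have h3 := EE_exp_lin hS a (-t)
  have h4 : Real.exp (t ^ 2 * (∑ p ∈ S, a p ^ 2) / 2) ≤ Real.exp (t ^ 2 * V / 2) := by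
    apply Real.exp_le_exp.2
    gcongr
  rw [neg_sq] at h3
  linarith

/-- `E (c + b e^{t|P| - s})` -/
lemma EE_affine {S : Finset ℕ} (hS : ∀ p ∈ S, 1 ≤ p) (a : ℕ → ℝ) {t V s : ℝ}
    (hV : ∑ p ∈ S, a p ^ 2 ≤ V) (ht : 0 ≤ t) (hs : t ^ 2 * V / 2 ≤ s) :
    EE S (fun ω => Real.exp (t * |lin S a ω| - s)) ≤ 2 := by
  have h1 : (fun ω : ℕ → ℝ => Real.exp (t * |lin S a ω| - s)) =
      fun ω => Real.exp (-s) * Real.exp (t * |lin S a ω|) := by
    funext ω
    rw [← Real.exp_add]; congr 1; ring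
  rw [h1, EE_mul_left]
  have h2 := EE_exp_abs hS a hV ht
  calc Real.exp (-s) * EE S (fun ω => Real.exp (t * |lin S a ω|))
      ≤ Real.exp (-s) * (2 * Real.exp (t ^ 2 * V / 2)) := by gcongr
    _ = 2 * Real.exp (t ^ 2 * V / 2 - s) := by
        rw [sub_eq_add_neg, Real.exp_add]; ring
    _ ≤ 2 * 1 := by
        gcongr
        rw [Real.exp_le_one_iff]; linarith
    _ = 2 := by ring

section

variable {η l C Z : ℝ} {R : ℝ → ℝ} {Q : Polynomial ℝ}

/-- the data of `exists_psi` -/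
structure Psi (η l C Z : ℝ) (R : ℝ → ℝ) (Q : Polynomial ℝ) : Prop where
  hη : 0 < η
  hη1 : η ≤ 1
  hl : 1 ≤ l
  hC : 1 ≤ C
  hZ : 1 ≤ Z
  hR : ∀ x, 0 ≤ R x ∧ R x ≤ 1
  small : ∀ x, |x| ≤ η * l / 16 → 1 - R x ≤ Real.exp (-l)
  bd : ∀ x, Real.exp (-x) * R x ≤ C * Real.exp (η * l / 4) + Real.exp (3 * |x| - 37 * l)
  deg : (Q.natDegree : ℝ) ≤ C * Real.exp (η * l)
  coef : ∀ n, |Q.coeff n| ≤ Real.exp (C * Real.exp (η * l))
  err : ∀ x, |Real.exp (-x) * R x - Q.eval x| ≤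
        Real.exp (-(100 * Z ^ 2 * l) - 10 * l) * Real.exp (2 * (Z * |x|))

/-- `exists_psi`, packaged -/
theorem exists_Psi (hη : 0 < η) (hη1 : η ≤ 1) : ∃ C : ℝ, 1 ≤ C ∧ ∀ l : ℝ, 1 ≤ l →
    ∃ (R : ℝ → ℝ) (Q : Polynomial ℝ) (Z : ℝ), Psi η l C Z R Q := by
  obtain ⟨C, hC, h⟩ := exists_psi hη hη1
  refine ⟨C, hC, fun l hl => ?_⟩
  obtain ⟨R, Q, Z, h1, h2, h3, h4, h5, h6, h7⟩ := h l hl
  exact ⟨R, Q, Z, hη, hη1, hl, hC, h1, h2, h3, h4, h5, h6, h7⟩

namespace Psi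

variable (D : Psi η l C Z R Q)
include D

lemma abs_Q_le (x : ℝ) : |Q.eval x| ≤ C * Real.exp (η * l / 4) + Real.exp (3 * |x| - 37 * l) +
    Real.exp (2 * Z * |x| - (100 * Z ^ 2 * l + 10 * l)) := by
  have h1 := D.err x
  have h2 := D.bd x
  have h3 : 0 ≤ Real.exp (-x) * R x := mul_nonneg (Real.exp_pos _).le (D.hR x).1
  rw [← Real.exp_add, show -(100 * Z ^ 2 * l) - 10 * l + 2 * (Z * |x|) =
    2 * Z * |x| - (100 * Z ^ 2 * l + 10 * l) by ring] at h1
  have h4 : |Q.eval x| ≤ |Real.exp (-x) * R x| + |Real.exp (-x) * R x - Q.eval x| := by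
    have := abs_sub_abs_le_abs_sub (Q.eval x) (Real.exp (-x) * R x)
    rw [abs_sub_comm] at this
    linarith
  rw [abs_of_nonneg h3] at h4
  linarith

lemma sq3 (a b c : ℝ) : (a + b + c) ^ 2 ≤ 3 * (a ^ 2 + b ^ 2 + c ^ 2) := by
  nlinarith [sq_nonneg (a - b), sq_nonneg (b - c), sq_nonneg (a - c)]

lemma four3 (a b c : ℝ) : (a + b + c) ^ 4 ≤ 27 * (a ^ 4 + b ^ 4 + c ^ 4) := by
  have h1 := sq3 D a b c
  have h2 := sq3 D (a ^ 2) (b ^ 2) (c ^ 2)
  have h3 : 0 ≤ (a + b + c) ^ 2 := sq_nonneg _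
  calc (a + b + c) ^ 4 = ((a + b + c) ^ 2) ^ 2 := by ring
    _ ≤ (3 * (a ^ 2 + b ^ 2 + c ^ 2)) ^ 2 := by gcongr
    _ = 9 * (a ^ 2 + b ^ 2 + c ^ 2) ^ 2 := by ring
    _ ≤ 9 * (3 * ((a ^ 2) ^ 2 + (b ^ 2) ^ 2 + (c ^ 2) ^ 2)) := by gcongr
    _ = _ := by ring

variable {S : Finset ℕ} (hS : ∀ p ∈ S, 1 ≤ p) (a : ℕ → ℝ) (hV : ∑ p ∈ S, a p ^ 2 ≤ 2 * l)
include hS hV

/-- second moment of the polynomial -/
theorem two : EE S (fun ω => Q.eval (lin S a ω) ^ 2) ≤ 15 * C ^ 2 * Real.exp (η * l / 2) := by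
  have hl := D.hl
  have hZ2 : 1 ≤ Z ^ 2 := one_le_pow₀ D.hZ
  have h1 : EE S (fun ω => Q.eval (lin S a ω) ^ 2) ≤ EE S (fun ω =>
      3 * (C ^ 2 * Real.exp (η * l / 2)) + (3 * Real.exp (6 * |lin S a ω| - 74 * l) +
        3 * Real.exp (4 * Z * |lin S a ω| - (200 * Z ^ 2 * l + 20 * l)))) := by
    refine EE_mono hS fun ω _ => ?_
    set x := lin S a ω
    have h2 := D.abs_Q_le x
    have h3 : Q.eval x ^ 2 ≤ (C * Real.exp (η * l / 4) + Real.exp (3 * |x| - 37 * l) +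
        Real.exp (2 * Z * |x| - (100 * Z ^ 2 * l + 10 * l))) ^ 2 := by
      rw [← sq_abs (Q.eval x)]
      exact pow_le_pow_left₀ (abs_nonneg _) h2 2
    refine h3.trans ((sq3 D _ _ _).trans (le_of_eq ?_))
    rw [mul_pow, ← Real.exp_nat_mul, ← Real.exp_nat_mul, ← Real.exp_nat_mul]
    have e1 : ((2 : ℕ) : ℝ) * (η * l / 4) = η * l / 2 := by push_cast; ring
    have e2 : ((2 : ℕ) : ℝ) * (3 * |x| - 37 * l) = 6 * |x| - 74 * l := by push_cast; ring
    have e3 : ((2 : ℕ) : ℝ) * (2 * Z * |x| - (100 * Z ^ 2 * l + 10 * l)) =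
      4 * Z * |x| - (200 * Z ^ 2 * l + 20 * l) := by push_cast; ring
    rw [e1, e2, e3]
    ring
  rw [EE_add, EE_add, EE_const, EE_mul_left, EE_mul_left] at h1
  have h2 := EE_affine hS a (t := 6) (s := 74 * l) hV (by norm_num) (by nlinarith)
  have h3 := EE_affine hS a (t := 4 * Z) (s := 200 * Z ^ 2 * l + 20 * l) hV
    (by have := D.hZ; positivity) (by nlinarith [mul_pos (show (0:ℝ) < Z ^ 2 by positivity) (show (0:ℝ) < l by linarith)])
  have h4 : 1 ≤ Real.exp (η * l / 2) := Real.one_le_exp (by have := D.hη; positivity)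
  have h5 : 1 ≤ C ^ 2 := one_le_pow₀ D.hC
  have h6 : 1 ≤ C ^ 2 * Real.exp (η * l / 2) := by
    calc (1 : ℝ) = 1 * 1 := by ring
      _ ≤ _ := by gcongr
  nlinarith

/-- fourth moment of the polynomial -/
theorem four : EE S (fun ω => Q.eval (lin S a ω) ^ 4) ≤ 135 * C ^ 4 * Real.exp (η * l) := by
  have hl := D.hl
  have hZ2 : 1 ≤ Z ^ 2 := one_le_pow₀ D.hZ
  have h1 : EE S (fun ω => Q.eval (lin S a ω) ^ 4) ≤ EE S (fun ω =>
      27 * (C ^ 4 * Real.exp (η * l)) + (27 * Real.exp (12 * |lin S a ω| - 148 * l) +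
        27 * Real.exp (8 * Z * |lin S a ω| - (400 * Z ^ 2 * l + 40 * l)))) := by
    refine EE_mono hS fun ω _ => ?_
    set x := lin S a ω
    have h2 := D.abs_Q_le x
    have h3 : Q.eval x ^ 4 ≤ (C * Real.exp (η * l / 4) + Real.exp (3 * |x| - 37 * l) +
        Real.exp (2 * Z * |x| - (100 * Z ^ 2 * l + 10 * l))) ^ 4 := by
      have e : Q.eval x ^ 4 = |Q.eval x| ^ 4 := by
        rw [← abs_pow, abs_of_nonneg (by positivity)]
      rw [e]
      exact pow_le_pow_left₀ (abs_nonneg _) h2 4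
    refine h3.trans ((four3 D _ _ _).trans (le_of_eq ?_))
    rw [mul_pow, ← Real.exp_nat_mul, ← Real.exp_nat_mul, ← Real.exp_nat_mul]
    have e1 : ((4 : ℕ) : ℝ) * (η * l / 4) = η * l := by push_cast; ring
    have e2 : ((4 : ℕ) : ℝ) * (3 * |x| - 37 * l) = 12 * |x| - 148 * l := by push_cast; ring
    have e3 : ((4 : ℕ) : ℝ) * (2 * Z * |x| - (100 * Z ^ 2 * l + 10 * l)) =
      8 * Z * |x| - (400 * Z ^ 2 * l + 40 * l) := by push_cast; ring
    rw [e1, e2, e3]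
    ring
  rw [EE_add, EE_add, EE_const, EE_mul_left, EE_mul_left] at h1
  have h2 := EE_affine hS a (t := 12) (s := 148 * l) hV (by norm_num) (by nlinarith)
  have h3 := EE_affine hS a (t := 8 * Z) (s := 400 * Z ^ 2 * l + 40 * l) hV
    (by have := D.hZ; positivity) (by nlinarith [mul_pos (show (0:ℝ) < Z ^ 2 by positivity) (show (0:ℝ) < l by linarith)])
  have h4 : 1 ≤ Real.exp (η * l) := Real.one_le_exp (by have := D.hη; positivity)
  have h5 : 1 ≤ C ^ 4 := one_le_pow₀ D.hC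
  have h6 : 1 ≤ C ^ 4 * Real.exp (η * l) := by
    calc (1 : ℝ) = 1 * 1 := by ring
      _ ≤ _ := by gcongr
  nlinarith

/-- the approximation error -/
theorem errM : EE S (fun ω => (Q.eval (lin S a ω) * Real.exp (lin S a ω) - R (lin S a ω)) ^ 4) ≤
    2 * Real.exp (-(40 * l)) := by
  have hl := D.hl
  have hZ := D.hZ
  have hZ2 : 1 ≤ Z ^ 2 := one_le_pow₀ D.hZ
  have h1 : EE S (fun ω => (Q.eval (lin S a ω) * Real.exp (lin S a ω) - R (lin S a ω)) ^ 4) ≤
      EE S (fun ω => Real.exp (-(40 * l)) * Real.exp (12 * Z * |lin S a ω| - 400 * Z ^ 2 * l)) := by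
    refine EE_mono hS fun ω _ => ?_
    set x := lin S a ω
    have h2 : |Q.eval x * Real.exp x - R x| ≤
        Real.exp (-(10 * l)) * Real.exp (3 * Z * |x| - 100 * Z ^ 2 * l) := by
      have e : Q.eval x * Real.exp x - R x = -(Real.exp x * (Real.exp (-x) * R x - Q.eval x)) := by
        rw [mul_sub, ← mul_assoc, ← Real.exp_add]
        simp
        ring
      rw [e, abs_neg, abs_mul, abs_of_pos (Real.exp_pos x)]
      calc Real.exp x * |Real.exp (-x) * R x - Q.eval x| ≤ Real.exp (Z * |x|) *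
            (Real.exp (-(100 * Z ^ 2 * l) - 10 * l) * Real.exp (2 * (Z * |x|))) := by
            refine mul_le_mul (Real.exp_le_exp.2 ?_) (D.err x) (abs_nonneg _) (Real.exp_pos _).le
            have := le_abs_self x
            nlinarith [abs_nonneg x]
        _ = _ := by
            rw [← Real.exp_add, ← Real.exp_add, ← Real.exp_add]
            congr 1; ring
    have h3 : (Q.eval x * Real.exp x - R x) ^ 4 = |Q.eval x * Real.exp x - R x| ^ 4 := by
      rw [← abs_pow, abs_of_nonneg (by positivity)]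
    rw [h3]
    refine (pow_le_pow_left₀ (abs_nonneg _) h2 4).trans (le_of_eq ?_)
    rw [mul_pow, ← Real.exp_nat_mul, ← Real.exp_nat_mul]
    have e1 : ((4 : ℕ) : ℝ) * (-(10 * l)) = -(40 * l) := by push_cast; ring
    have e2 : ((4 : ℕ) : ℝ) * (3 * Z * |x| - 100 * Z ^ 2 * l) = 12 * Z * |x| - 400 * Z ^ 2 * l := by
      push_cast; ring
    rw [e1, e2]
  rw [EE_mul_left] at h1
  have h2 := EE_affine hS a (t := 12 * Z) (s := 400 * Z ^ 2 * l) hV (by positivity) (by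
    nlinarith [mul_pos (show (0:ℝ) < Z ^ 2 by positivity) (show (0:ℝ) < l by linarith)])
  calc _ ≤ Real.exp (-(40 * l)) * EE S (fun ω => Real.exp (12 * Z * |lin S a ω| - 400 * Z ^ 2 * l)) := h1
    _ ≤ Real.exp (-(40 * l)) * 2 := by gcongr
    _ = _ := by ring

/-- the barrier is `1` most of the time -/
theorem barM : EE S (fun ω => (1 - R (lin S a ω)) ^ 2) ≤
    3 * Real.exp (-(η ^ 2 / 1024 * l)) := by
  have hl := D.hl
  have hη := D.hη
  have hη1 := D.hη1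
  have h1 : EE S (fun ω => (1 - R (lin S a ω)) ^ 2) ≤ EE S (fun ω => Real.exp (-l) +
      Real.exp (-(η ^ 2 / 1024 * l)) * Real.exp (η / 32 * |lin S a ω| - η ^ 2 / 1024 * l)) := by
    refine EE_mono hS fun ω _ => ?_
    set x := lin S a ω
    have h2 := D.hR x
    have h3 : (1 - R x) ^ 2 ≤ 1 - R x := by nlinarith [h2.1, h2.2]
    rcases le_or_gt |x| (η * l / 16) with h | h
    · have h4 := D.small x h
      have h5 : 0 < Real.exp (-(η ^ 2 / 1024 * l)) * Real.exp (η / 32 * |x| - η ^ 2 / 1024 * l) := by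
        positivity
      linarith
    · have h4 : 1 ≤ Real.exp (-(η ^ 2 / 1024 * l)) * Real.exp (η / 32 * |x| - η ^ 2 / 1024 * l) := by
        rw [← Real.exp_add]
        apply Real.one_le_exp
        have : η / 32 * (η * l / 16) ≤ η / 32 * |x| := by gcongr
        nlinarith
      have h5 := Real.exp_pos (-l)
      linarith [h2.1]
  rw [EE_add, EE_const, EE_mul_left] at h1
  have h2 := EE_affine hS a (t := η / 32) (s := η ^ 2 / 1024 * l) hV (by positivity) (by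
    nlinarith)
  have h3 : Real.exp (-l) ≤ Real.exp (-(η ^ 2 / 1024 * l)) := by
    apply Real.exp_le_exp.2
    have : η ^ 2 / 1024 ≤ 1 := by
      have : η ^ 2 ≤ 1 := pow_le_one₀ hη.le hη1
      linarith
    nlinarith
  have h4 : Real.exp (-(η ^ 2 / 1024 * l)) * EE S (fun ω =>
      Real.exp (η / 32 * |lin S a ω| - η ^ 2 / 1024 * l)) ≤ Real.exp (-(η ^ 2 / 1024 * l)) * 2 := by
    gcongr
  linarith

end Psi

end

end P004E.M
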