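import Vale.Agent.P004E.H357.M1
import Vale.Agent.P004E.H3.Zi

/-!
# P004E, module M (part 2): the tilted Euler factors
-/

open Finset Real

namespace P004E.M

open P004.H293
open P004G
open P004G.H293 (ratio_bound den_lower' E1_normSq_le Lp Lp_eq tt inv_sqrt_le inv_sqrt_sq
  norm_tt_le norm_tt_le' abs_lam_le)
open P004G.E3W (E1c EEc EEc_prod EEc_re EE_cs tt_exp)

lemma exp_taylor {u : ℝ} (hu : |u| ≤ 2) : |Real.exp u - (1 + u + u ^ 2 / 2)| ≤ 8 * |u| ^ 3 := by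
  have h := Complex.norm_exp_sub_sum_le_norm_mul_exp (u : ℂ) 3
  have e : Complex.exp (u : ℂ) - ∑ m ∈ range 3, (u : ℂ) ^ m / (m.factorial : ℂ) =
      ((Real.exp u - (1 + u + u ^ 2 / 2) : ℝ) : ℂ) := by
    simp only [Finset.sum_range_succ, Finset.sum_range_zero]
    push_cast [Nat.factorial]
    ring
  rw [e, Complex.norm_real, Complex.norm_real, Real.norm_eq_abs, Real.norm_eq_abs] at h
  refine h.trans ?_
  have h2 : Real.exp |u| ≤ 8 := by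
    calc Real.exp |u| ≤ Real.exp 2 := Real.exp_le_exp.2 hu
      _ = Real.exp 1 ^ 2 := by rw [← Real.exp_nat_mul]; norm_num
      _ ≤ 2.7182818286 ^ 2 := by
          have := Real.exp_one_lt_d9
          have h0 := Real.exp_pos 1
          gcongr
      _ ≤ 8 := by norm_num
  have h3 : 0 ≤ |u| ^ 3 := by positivity
  nlinarith

/-- one tilted Euler factor -/
lemma loc {l t0 : ℝ} {t : ℂ} (hl : |l| ≤ 2) (h0 : 0 ≤ t0) (h1 : t0 ≤ 3 / 5) (ht : ‖t‖ ≤ t0) :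
    ‖(Real.exp (-(l * t0) + t0 ^ 2 * (1 - l ^ 2 / 2)) : ℂ) * (1 - l * t + t ^ 2)⁻¹ -
      (1 + l * (t - t0))‖ ≤ 80 * (‖t - t0‖ * t0) + 8400 * t0 ^ 3 := by
  set u : ℝ := -(l * t0) + t0 ^ 2 * (1 - l ^ 2 / 2) with hu
  have hl2 : l ^ 2 ≤ 4 := by
    rw [← sq_abs]
    have := abs_nonneg l
    nlinarith
  have hm : |1 - l ^ 2 / 2| ≤ 1 := by
    rw [abs_le]
    constructor <;> nlinarith [sq_nonneg l]
  have hua : |u| ≤ 13 / 5 * t0 := by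
    calc |u| ≤ |-(l * t0)| + |t0 ^ 2 * (1 - l ^ 2 / 2)| := abs_add_le _ _
      _ = |l| * t0 + t0 ^ 2 * |1 - l ^ 2 / 2| := by
          rw [abs_neg, abs_mul, abs_mul, abs_of_nonneg h0, abs_of_nonneg (sq_nonneg t0)]
      _ ≤ 2 * t0 + t0 ^ 2 * 1 := by gcongr
      _ ≤ 13 / 5 * t0 := by nlinarith
  have hu2 : |u| ≤ 2 := hua.trans (by linarith)
  have h2 := exp_taylor hu2
  have h3 : |u| ^ 3 ≤ (13 / 5 * t0) ^ 3 := pow_le_pow_left₀ (abs_nonneg _) hua 3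
  set N0 : ℝ := 1 - l * t0 + t0 ^ 2 with hN0
  have h4 : |(1 + u + u ^ 2 / 2) - N0| ≤ 3 * t0 ^ 3 := by
    have e : (1 + u + u ^ 2 / 2) - N0 = -(l * t0 ^ 3 * (1 - l ^ 2 / 2)) +
        t0 ^ 4 * (1 - l ^ 2 / 2) ^ 2 / 2 := by
      rw [hu, hN0]; ring
    rw [e]
    calc |-(l * t0 ^ 3 * (1 - l ^ 2 / 2)) + t0 ^ 4 * (1 - l ^ 2 / 2) ^ 2 / 2|
        ≤ |-(l * t0 ^ 3 * (1 - l ^ 2 / 2))| + |t0 ^ 4 * (1 - l ^ 2 / 2) ^ 2 / 2| := abs_add_le _ _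
      _ = |l| * t0 ^ 3 * |1 - l ^ 2 / 2| + t0 ^ 4 * |1 - l ^ 2 / 2| ^ 2 / 2 := by
          rw [abs_neg, abs_mul, abs_mul, abs_of_nonneg (by positivity : (0 : ℝ) ≤ t0 ^ 3),
            abs_of_nonneg (by positivity : (0 : ℝ) ≤ t0 ^ 4 * (1 - l ^ 2 / 2) ^ 2 / 2), sq_abs]
      _ ≤ 2 * t0 ^ 3 * 1 + t0 ^ 4 * 1 ^ 2 / 2 := by gcongr
      _ ≤ 3 * t0 ^ 3 := by
          have : t0 ^ 4 ≤ 3 / 5 * t0 ^ 3 := by
            rw [show t0 ^ 4 = t0 * t0 ^ 3 by ring]; gcongr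
          have : 0 ≤ t0 ^ 3 := by positivity
          linarith
  have h5 : |Real.exp u - N0| ≤ 144 * t0 ^ 3 := by
    calc |Real.exp u - N0| = |(Real.exp u - (1 + u + u ^ 2 / 2)) + ((1 + u + u ^ 2 / 2) - N0)| := by
          congr 1; ring
      _ ≤ |Real.exp u - (1 + u + u ^ 2 / 2)| + |(1 + u + u ^ 2 / 2) - N0| := abs_add_le _ _
      _ ≤ 8 * (13 / 5 * t0) ^ 3 + 3 * t0 ^ 3 := by linarith
      _ ≤ 144 * t0 ^ 3 := by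
          have : 0 ≤ t0 ^ 3 := by positivity
          rw [mul_pow]; norm_num; linarith
  set D : ℂ := 1 - l * t + t ^ 2 with hD
  have hDn : 4 / 25 ≤ ‖D‖ := den_lower' hl (ht.trans h1)
  have hDi : ‖D⁻¹‖ ≤ 25 / 4 := by
    rw [norm_inv, show (25 / 4 : ℝ) = (4 / 25)⁻¹ by norm_num]
    exact inv_anti₀ (by norm_num) hDn
  have h6 := ratio_bound hl (t := t) (y := (t0 : ℂ)) (r := t0) ht (by
    rw [Complex.norm_real, Real.norm_eq_abs, abs_of_nonneg h0]) h1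
  have e : (Real.exp u : ℂ) * D⁻¹ - (1 + l * (t - t0)) =
      ((Real.exp u - N0 : ℝ) : ℂ) * D⁻¹ +
        ((1 - l * (t0 : ℂ) + (t0 : ℂ) ^ 2) * D⁻¹ - (1 + l * (t - t0))) := by
    rw [hN0]
    push_cast
    ring
  rw [e]
  calc _ ≤ ‖((Real.exp u - N0 : ℝ) : ℂ) * D⁻¹‖ +
        ‖(1 - l * (t0 : ℂ) + (t0 : ℂ) ^ 2) * D⁻¹ - (1 + l * (t - t0))‖ := norm_add_le _ _
    _ ≤ (144 * t0 ^ 3) * (25 / 4) + 80 * (‖t - t0‖ * t0) := by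
        rw [norm_mul, Complex.norm_real, Real.norm_eq_abs]
        gcongr
    _ ≤ _ := by
        have : 0 ≤ t0 ^ 3 := by positivity
        linarith

lemma loc0 {l t0 : ℝ} (hl : |l| ≤ 2) (h0 : 0 ≤ t0) (h1 : t0 ≤ 3 / 5) :
    |Real.exp (t0 ^ 2 * (1 - l ^ 2 / 2)) - 1| ≤ 2 * t0 ^ 2 := by
  have hl2 : l ^ 2 ≤ 4 := by
    rw [← sq_abs]
    have := abs_nonneg l
    nlinarith
  have hm : |1 - l ^ 2 / 2| ≤ 1 := by
    rw [abs_le]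
    constructor <;> nlinarith [sq_nonneg l]
  have h2 : |t0 ^ 2 * (1 - l ^ 2 / 2)| ≤ t0 ^ 2 := by
    rw [abs_mul, abs_of_nonneg (sq_nonneg t0)]
    calc t0 ^ 2 * |1 - l ^ 2 / 2| ≤ t0 ^ 2 * 1 := by gcongr
      _ = _ := by ring
  have h3 : t0 ^ 2 ≤ 1 := by nlinarith
  have := Real.abs_exp_sub_one_le (h2.trans h3)
  linarith

section coord

variable {p : ℕ} {g : ℝ → ℂ} {a : ℂ} {r δ : ℝ}

/-- the mean of one coordinate -/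
lemma coord1 (hp : 1 ≤ p) (hr0 : 0 ≤ r) (hr : r ≤ 3 / 5)
    (hr2 : r ^ 2 = 1 / p)
    (h0 : ‖g 0 - 1‖ ≤ 2 * r ^ 2) (h1 : ‖g 1 - (1 + a)‖ ≤ 80 * (δ * r) + 8400 * r ^ 3)
    (h2 : ‖g (-1) - (1 - a)‖ ≤ 80 * (δ * r) + 8400 * r ^ 3) :
    ‖E1c p g - 1‖ ≤ 80 * (δ * r) + 9000 * r ^ 3 := by
  set B : ℝ := 80 * (δ * r) + 8400 * r ^ 3 with hB
  have hr3 : 0 ≤ r ^ 3 := by positivity
  have hB0 : 0 ≤ B := (norm_nonneg _).trans h1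
  have hq0 : (0 : ℝ) ≤ 1 / p := by positivity
  have hq1 : (1 : ℝ) / p ≤ 1 := by
    rw [div_le_one (by exact_mod_cast hp)]; exact_mod_cast hp
  have hr4 : r ^ 4 ≤ 3 / 5 * r ^ 3 := by
    rw [show r ^ 4 = r * r ^ 3 by ring]; gcongr
  have e : E1c p g - 1 = ((1 / p : ℝ) : ℂ) * (g 0 - 1) + (((1 - 1 / p) / 2 : ℝ) : ℂ) *
      ((g 1 - (1 + a)) + (g (-1) - (1 - a))) := by
    unfold E1c
    push_cast
    ring
  rw [e]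
  calc _ ≤ ‖((1 / p : ℝ) : ℂ) * (g 0 - 1)‖ + ‖(((1 - 1 / p) / 2 : ℝ) : ℂ) *
        ((g 1 - (1 + a)) + (g (-1) - (1 - a)))‖ := norm_add_le _ _
    _ ≤ (1 / p) * (2 * r ^ 2) + ((1 - 1 / p) / 2) * (B + B) := by
        rw [norm_mul, norm_mul, Complex.norm_real, Complex.norm_real, Real.norm_eq_abs,
          Real.norm_eq_abs, abs_of_nonneg hq0, abs_of_nonneg (by linarith :
            (0 : ℝ) ≤ (1 - 1 / p) / 2)]
        have : 0 ≤ (1 - 1 / (p : ℝ)) / 2 := by linarith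
        gcongr
        exact (norm_add_le _ _).trans (add_le_add h1 h2)
    _ ≤ r ^ 2 * (2 * r ^ 2) + B := by
        rw [← hr2]
        nlinarith
    _ ≤ _ := by
        rw [hB]
        nlinarith

/-- the variance of one coordinate -/
lemma coord2 (hp : 1 ≤ p) (hr0 : 0 ≤ r) (hr : r ≤ 3 / 5)
    (hδ0 : 0 ≤ δ) (ha : ‖a‖ ≤ 2 * δ)
    (h0 : ‖g 0 - 1‖ ≤ 2 * r ^ 2) (h1 : ‖g 1 - (1 + a)‖ ≤ 80 * (δ * r) + 8400 * r ^ 3)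
    (h2 : ‖g (-1) - (1 - a)‖ ≤ 80 * (δ * r) + 8400 * r ^ 3) :
    E1 p (fun x => ‖g x - 1‖ ^ 2) ≤ 5000 * δ ^ 2 + 100000000 * r ^ 3 := by
  set B : ℝ := 80 * (δ * r) + 8400 * r ^ 3 with hB
  have hr3 : 0 ≤ r ^ 3 := by positivity
  have hr3' : r ^ 3 ≤ 27 / 125 := by
    calc r ^ 3 ≤ (3 / 5) ^ 3 := pow_le_pow_left₀ hr0 hr 3
      _ = _ := by norm_num
  have hδr : 0 ≤ δ * r := by positivity
  have hB0 : 0 ≤ B := by positivity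
  have hq0 : (0 : ℝ) ≤ 1 / p := by positivity
  have hq1 : (1 : ℝ) / p ≤ 1 := by
    rw [div_le_one (by exact_mod_cast hp)]; exact_mod_cast hp
  have hr4 : r ^ 4 ≤ 3 / 5 * r ^ 3 := by
    rw [show r ^ 4 = r * r ^ 3 by ring]; gcongr
  have f1 : ‖g 1 - 1‖ ≤ 2 * δ + B := by
    calc ‖g 1 - 1‖ = ‖a + (g 1 - (1 + a))‖ := by congr 1; ring
      _ ≤ ‖a‖ + ‖g 1 - (1 + a)‖ := norm_add_le _ _
      _ ≤ _ := by linarith
  have f2 : ‖g (-1) - 1‖ ≤ 2 * δ + B := by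
    calc ‖g (-1) - 1‖ = ‖-a + (g (-1) - (1 - a))‖ := by congr 1; ring
      _ ≤ ‖-a‖ + ‖g (-1) - (1 - a)‖ := norm_add_le _ _
      _ ≤ _ := by rw [norm_neg]; linarith
  have hBle : 2 * δ + B ≤ 50 * δ + 8400 * r ^ 3 := by
    rw [hB]; nlinarith
  have f3 : (2 * δ + B) ^ 2 ≤ 5000 * δ ^ 2 + 50000000 * r ^ 3 := by
    have h5 : (2 * δ + B) ^ 2 ≤ (50 * δ + 8400 * r ^ 3) ^ 2 :=
      pow_le_pow_left₀ (by positivity) hBle 2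
    have h6 : (50 * δ + 8400 * r ^ 3) ^ 2 ≤ 2 * ((50 * δ) ^ 2 + (8400 * r ^ 3) ^ 2) := by
      nlinarith [sq_nonneg (50 * δ - 8400 * r ^ 3)]
    have h7 : (r ^ 3) ^ 2 ≤ 27 / 125 * r ^ 3 := by rw [sq]; gcongr
    have h8 : 2 * ((50 * δ) ^ 2 + (8400 * r ^ 3) ^ 2) = 5000 * δ ^ 2 + 141120000 * (r ^ 3) ^ 2 := by
      ring
    linarith
  have g1 : ‖g 1 - 1‖ ^ 2 ≤ (2 * δ + B) ^ 2 := pow_le_pow_left₀ (norm_nonneg _) f1 2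
  have g2 : ‖g (-1) - 1‖ ^ 2 ≤ (2 * δ + B) ^ 2 := pow_le_pow_left₀ (norm_nonneg _) f2 2
  have g0 : ‖g 0 - 1‖ ^ 2 ≤ (2 * r ^ 2) ^ 2 := pow_le_pow_left₀ (norm_nonneg _) h0 2
  unfold E1
  simp only
  calc 1 / (p : ℝ) * ‖g 0 - 1‖ ^ 2 + (1 - 1 / p) / 2 * (‖g 1 - 1‖ ^ 2 + ‖g (-1) - 1‖ ^ 2)
      ≤ 1 * (2 * r ^ 2) ^ 2 + (1 - 1 / p) / 2 * ((2 * δ + B) ^ 2 + (2 * δ + B) ^ 2) := by
        have : 0 ≤ (1 - 1 / (p : ℝ)) / 2 := by linarith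
        gcongr
    _ = 4 * r ^ 4 + (1 - 1 / p) * (2 * δ + B) ^ 2 := by ring
    _ ≤ 4 * r ^ 4 + 1 * (2 * δ + B) ^ 2 := by gcongr; linarith
    _ ≤ _ := by linarith

lemma quad {u b : ℂ} {B : ℝ} (hr0 : 0 ≤ r) (hδ0 : 0 ≤ δ) (hδ : δ ≤ 2 * r) (hr : r ≤ 3 / 5)
    (hB : B = 80 * (δ * r) + 8400 * r ^ 3) (hu : ‖u‖ ≤ 2 * δ) (hb : ‖b - (1 + u)‖ ≤ B) :
    ‖b ^ 2 - (1 + 2 * u)‖ ≤ 160000 * (δ * r) + 17000000 * r ^ 3 := by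
  have hr3 : 0 ≤ r ^ 3 := by positivity
  have hr3' : r ^ 3 ≤ 27 / 125 := by
    calc r ^ 3 ≤ (3 / 5) ^ 3 := pow_le_pow_left₀ hr0 hr 3
      _ = _ := by norm_num
  have hδr : 0 ≤ δ * r := by positivity
  have hδr' : δ * r ≤ 18 / 25 := by nlinarith
  have hB0 : 0 ≤ B := by rw [hB]; positivity
  have hB1 : B ≤ 1872 := by rw [hB]; linarith
  set E := b - (1 + u) with hE
  have hb' : b = 1 + u + E := by rw [hE]; ring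
  have : b ^ 2 - (1 + 2 * u) = u ^ 2 + 2 * (1 + u) * E + E ^ 2 := by rw [hb']; ring
  rw [this]
  have hu' : ‖1 + u‖ ≤ 17 / 5 := by
    refine (norm_add_le _ _).trans ?_
    rw [norm_one]; linarith
  have h1 : (2 * δ) ^ 2 ≤ 8 * (δ * r) := by nlinarith
  have h2 : B ^ 2 ≤ 1872 * B := by nlinarith
  calc ‖u ^ 2 + 2 * (1 + u) * E + E ^ 2‖ ≤ ‖u ^ 2 + 2 * (1 + u) * E‖ + ‖E ^ 2‖ :=
        norm_add_le _ _
    _ ≤ (‖u ^ 2‖ + ‖2 * (1 + u) * E‖) + ‖E ^ 2‖ := by gcongr; exact norm_add_le _ _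
    _ = (‖u‖ ^ 2 + 2 * ‖1 + u‖ * ‖E‖) + ‖E‖ ^ 2 := by
        rw [norm_pow, norm_pow, norm_mul, norm_mul]; simp
    _ ≤ ((2 * δ) ^ 2 + 2 * (17 / 5) * B) + B ^ 2 := by
        gcongr
    _ ≤ 8 * (δ * r) + 7 * B + 1872 * B := by linarith
    _ ≤ _ := by rw [hB]; linarith

/-- the fourth moment of one coordinate -/
lemma coord3 (hp : 1 ≤ p) (hr0 : 0 ≤ r) (hr : r ≤ 3 / 5)
    (hr2 : r ^ 2 = 1 / p) (hδ0 : 0 ≤ δ) (hδ : δ ≤ 2 * r) (ha : ‖a‖ ≤ 2 * δ)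
    (h0 : ‖g 0 - 1‖ ≤ 2 * r ^ 2) (h1 : ‖g 1 - (1 + a)‖ ≤ 80 * (δ * r) + 8400 * r ^ 3)
    (h2 : ‖g (-1) - (1 - a)‖ ≤ 80 * (δ * r) + 8400 * r ^ 3) :
    E1 p (fun x => ‖g x‖ ^ 4) ≤ 1 + 100000000000000 * (δ * r + r ^ 3) := by
  have hr3 : 0 ≤ r ^ 3 := by positivity
  have hr3' : r ^ 3 ≤ 27 / 125 := by
    calc r ^ 3 ≤ (3 / 5) ^ 3 := pow_le_pow_left₀ hr0 hr 3
      _ = _ := by norm_num
  have hδr : 0 ≤ δ * r := by positivity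
  have hδr' : δ * r ≤ 18 / 25 := by nlinarith
  have hq0 : (0 : ℝ) ≤ 1 / p := by positivity
  have hr4 : r ^ 4 ≤ 3 / 5 * r ^ 3 := by
    rw [show r ^ 4 = r * r ^ 3 by ring]; gcongr
  set B₂ : ℝ := 160000 * (δ * r) + 17000000 * r ^ 3 with hB₂
  have hB₂0 : 0 ≤ B₂ := by positivity
  have hB₂1 : B₂ ≤ 4000000 := by rw [hB₂]; linarith
  set F : ℝ → ℂ := fun x => if x = 0 then 1 else g x ^ 2 with hF
  have key := E1_normSq_le (p := p) hp (F := F) (a := 2 * a) (A := 4 * δ) (B := B₂)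
    (by simp [hF])
    (by
      simp only [hF]
      rw [if_neg (by norm_num)]
      exact quad hr0 hδ0 hδ hr rfl ha h1)
    (by
      simp only [hF]
      rw [if_neg (by norm_num)]
      have h3 := quad (u := -a) (b := g (-1)) hr0 hδ0 hδ hr rfl (by rw [norm_neg]; exact ha) (by
        rw [← sub_eq_add_neg]; exact h2)
      rw [show (1 : ℂ) - 2 * a = 1 + 2 * -a by ring]
      exact h3)
    (by
      rw [norm_mul]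
      have : ‖(2 : ℂ)‖ = 2 := by simp
      rw [this]
      linarith)
  have g0 : ‖g 0‖ ≤ 1 + 2 * r ^ 2 := by
    calc ‖g 0‖ = ‖1 + (g 0 - 1)‖ := by congr 1; ring
      _ ≤ ‖(1 : ℂ)‖ + ‖g 0 - 1‖ := norm_add_le _ _
      _ ≤ _ := by rw [norm_one]; linarith
  have g04 : ‖g 0‖ ^ 4 ≤ 1 + 40 * r ^ 2 := by
    have h3 : r ^ 2 ≤ 9 / 25 := by nlinarith
    have h4 : 0 ≤ r ^ 2 := sq_nonneg r
    calc ‖g 0‖ ^ 4 ≤ (1 + 2 * r ^ 2) ^ 4 := pow_le_pow_left₀ (norm_nonneg _) g0 4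
      _ = ((1 + 2 * r ^ 2) ^ 2) ^ 2 := by ring
      _ ≤ (1 + 6 * r ^ 2) ^ 2 := by
          gcongr
          nlinarith
      _ ≤ _ := by nlinarith
  have e1 : E1 p (fun x => ‖g x‖ ^ 4) = E1 p (fun x => ‖F x‖ ^ 2) + 1 / p * (‖g 0‖ ^ 4 - 1) := by
    have F0 : F 0 = 1 := if_pos rfl
    have F1 : F 1 = g 1 ^ 2 := if_neg (by norm_num)
    have F2 : F (-1) = g (-1) ^ 2 := if_neg (by norm_num)
    unfold E1
    simp only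
    rw [F0, F1, F2, norm_one, norm_pow, norm_pow]
    ring
  rw [e1]
  have f1 : (4 * δ) ^ 2 ≤ 32 * (δ * r) := by nlinarith
  have f2 : 2 * (1 + 4 * δ) * B₂ ≤ 12 * B₂ := by
    have : δ ≤ 6 / 5 := by linarith
    have : 2 * (1 + 4 * δ) ≤ 12 := by linarith
    gcongr
  have f3 : B₂ ^ 2 ≤ 4000000 * B₂ := by rw [sq]; gcongr
  have f4 : 1 / (p : ℝ) * (‖g 0‖ ^ 4 - 1) ≤ 40 * r ^ 4 := by
    calc 1 / (p : ℝ) * (‖g 0‖ ^ 4 - 1) ≤ 1 / (p : ℝ) * (40 * r ^ 2) := by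
          gcongr; linarith
      _ = _ := by rw [← hr2]; ring
  have f5 : E1 p (fun x => ‖F x‖ ^ 2) + 1 / p * (‖g 0‖ ^ 4 - 1) ≤
      1 + 32 * (δ * r) + 12 * B₂ + 4000000 * B₂ + 40 * r ^ 4 := by linarith
  refine f5.trans ?_
  rw [hB₂]
  linarith

end coord

end P004E.M
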