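import Vale.Agent.P004E.H357.M2

/-!
# P004E, module M (part 3): products of independent factors close to one
-/

open Finset Real

namespace P004E.M

open P004.H293
open P004G
open P004G.H293 (ratio_bound den_lower' E1_normSq_le Lp Lp_eq tt inv_sqrt_le inv_sqrt_sq
  norm_tt_le norm_tt_le' abs_lam_le)
open P004G.E3W (E1c EEc EEc_prod EEc_re EE_cs tt_exp)

lemma normSq_split (w : ℂ) : ‖w‖ ^ 2 = ‖w - 1‖ ^ 2 + (2 * w.re - 1) := by
  rw [← Complex.normSq_eq_norm_sq, ← Complex.normSq_eq_norm_sq, Complex.normSq_apply,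
    Complex.normSq_apply]
  simp
  ring

lemma E1c_re (p : ℕ) (g : ℝ → ℂ) : (E1c p g).re = E1 p (fun x => (g x).re) := by
  unfold E1c E1
  have h1 : (1 / (p : ℂ)) = ((1 / p : ℝ) : ℂ) := by push_cast; rfl
  rw [h1, show ((1 : ℂ) - ((1 / p : ℝ) : ℂ)) / 2 = (((1 - 1 / p) / 2 : ℝ) : ℂ) by push_cast; ring,
    Complex.add_re, Complex.re_ofReal_mul, Complex.re_ofReal_mul, Complex.add_re]

lemma E1_normSq_split (p : ℕ) (g : ℝ → ℂ) : E1 p (fun x => ‖g x‖ ^ 2) =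
    E1 p (fun x => ‖g x - 1‖ ^ 2) + (2 * (E1c p g).re - 1) := by
  rw [E1c_re]
  have h1 : (fun x => ‖g x‖ ^ 2) = fun x => ‖g x - 1‖ ^ 2 + (2 * (g x).re - 1) := by
    funext x
    exact normSq_split _
  rw [h1]
  unfold E1
  ring

/-- a product of independent factors, each close to one -/
theorem prod_sub_one {S : Finset ℕ} (hS : ∀ p ∈ S, 1 ≤ p) (g : ℕ → ℝ → ℂ) (b τ : ℕ → ℝ)
    (hb : ∀ p ∈ S, ‖E1c p (g p) - 1‖ ≤ b p)
    (hτ : ∀ p ∈ S, E1 p (fun x => ‖g p x - 1‖ ^ 2) ≤ τ p) :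
    EE S (fun ω => ‖∏ p ∈ S, g p (ω p) - 1‖ ^ 2) ≤
      (∑ p ∈ S, τ p) * Real.exp (∑ p ∈ S, (2 * b p + τ p)) +
        (Real.exp (∑ p ∈ S, b p) - 1) ^ 2 := by
  classical
  set v : ℕ → ℝ := fun p => E1 p (fun x => ‖g p x‖ ^ 2) with hv
  set w : ℕ → ℂ := fun p => E1c p (g p) with hw
  have e1 : EE S (fun ω => ‖∏ p ∈ S, g p (ω p) - 1‖ ^ 2) =
      ∏ p ∈ S, v p - (2 * (∏ p ∈ S, w p).re - 1) := by
    have h1 : (fun ω : ℕ → ℝ => ‖∏ p ∈ S, g p (ω p) - 1‖ ^ 2) = fun ω =>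
        (∏ p ∈ S, ‖g p (ω p)‖ ^ 2) - (2 * (∏ p ∈ S, g p (ω p)).re - 1) := by
      funext ω
      have := normSq_split (∏ p ∈ S, g p (ω p))
      rw [Finset.prod_pow, ← norm_prod]
      linarith
    rw [h1, EE_sub S (fun ω => ∏ p ∈ S, ‖g p (ω p)‖ ^ 2)
      (fun ω => 2 * (∏ p ∈ S, g p (ω p)).re - 1),
      EE_sub S (fun ω => 2 * (∏ p ∈ S, g p (ω p)).re) (fun _ => 1), EE_mul_left, EE_const,
      EE_prod S (fun p x => ‖g p x‖ ^ 2)]
    rw [← EEc_re, EEc_prod]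
  have e2 : ∏ p ∈ S, v p - (2 * (∏ p ∈ S, w p).re - 1) =
      (∏ p ∈ S, v p - ∏ p ∈ S, ‖w p‖ ^ 2) + ‖∏ p ∈ S, w p - 1‖ ^ 2 := by
    have := normSq_split (∏ p ∈ S, w p)
    rw [Finset.prod_pow, ← norm_prod]
    linarith
  rw [e1, e2]
  have hb0 : ∀ p ∈ S, 0 ≤ b p := fun p hp => (norm_nonneg _).trans (hb p hp)
  have hτ0 : ∀ p ∈ S, 0 ≤ τ p := fun p hp => le_trans (by
    have := E1_mono (hS p hp) (G := fun _ => 0) (H := fun x => ‖g p x - 1‖ ^ 2)
      (fun x _ => by positivity)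
    rwa [E1_const] at this) (hτ p hp)
  have hv0 : ∀ p ∈ S, 0 ≤ v p := fun p hp => by
    have := E1_mono (hS p hp) (G := fun _ => 0) (H := fun x => ‖g p x‖ ^ 2)
      (fun x _ => by positivity)
    rwa [E1_const] at this
  have hv1 : ∀ p ∈ S, v p ≤ Real.exp (2 * b p + τ p) := by
    intro p hp
    have h1 : v p = E1 p (fun x => ‖g p x - 1‖ ^ 2) + (2 * (w p).re - 1) := E1_normSq_split _ _
    have h2 : (w p).re ≤ 1 + b p := by
      have h3 : (w p - 1).re ≤ b p := (Complex.re_le_norm _).trans (hb p hp)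
      rw [Complex.sub_re, Complex.one_re] at h3
      linarith
    have h3 := Real.add_one_le_exp (2 * b p + τ p)
    have h4 := hτ p hp
    linarith
  have hw1 : ∀ p ∈ S, ‖w p‖ ^ 2 ≤ Real.exp (2 * b p + τ p) := by
    intro p hp
    have h1 : ‖w p‖ ≤ 1 + b p := by
      calc ‖w p‖ = ‖1 + (w p - 1)‖ := by congr 1; ring
        _ ≤ ‖(1 : ℂ)‖ + ‖w p - 1‖ := norm_add_le _ _
        _ ≤ _ := by rw [norm_one]; linarith [hb p hp]
    calc ‖w p‖ ^ 2 ≤ (1 + b p) ^ 2 := pow_le_pow_left₀ (norm_nonneg _) h1 2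
      _ ≤ Real.exp (b p) ^ 2 := by
          have := Real.add_one_le_exp (b p)
          have := hb0 p hp
          gcongr
          linarith
      _ = Real.exp (2 * b p) := by rw [← Real.exp_nat_mul]; norm_num
      _ ≤ _ := Real.exp_le_exp.2 (by linarith [hτ0 p hp])
  have hvw : ∀ p ∈ S, v p - ‖w p‖ ^ 2 ≤ τ p := by
    intro p hp
    have h1 : v p = E1 p (fun x => ‖g p x - 1‖ ^ 2) + (2 * (w p).re - 1) := E1_normSq_split _ _
    have h2 := normSq_split (w p)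
    have h3 := hτ p hp
    have h4 : 0 ≤ ‖w p - 1‖ ^ 2 := by positivity
    linarith
  have key : ∀ T : Finset ℕ, T ⊆ S → ∏ p ∈ T, v p - ∏ p ∈ T, ‖w p‖ ^ 2 ≤
      (∑ p ∈ T, τ p) * Real.exp (∑ p ∈ T, (2 * b p + τ p)) := by
    intro T
    induction T using Finset.induction_on with
    | empty => intro _; simp
    | insert q T hq ih =>
      intro hT
      have hqS : q ∈ S := hT (mem_insert_self _ _)
      have hTS : T ⊆ S := fun x hx => hT (mem_insert_of_mem hx)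
      have ih' := ih hTS
      rw [Finset.prod_insert hq, Finset.prod_insert hq, Finset.sum_insert hq, Finset.sum_insert hq,
        Real.exp_add]
      set V' := ∏ p ∈ T, v p with hV'
      set W' := ∏ p ∈ T, ‖w p‖ ^ 2 with hW'
      have hVe : V' ≤ Real.exp (∑ p ∈ T, (2 * b p + τ p)) := by
        rw [Real.exp_sum]
        exact Finset.prod_le_prod (fun p hp => hv0 p (hTS hp)) fun p hp => hv1 p (hTS hp)
      have hV0 : 0 ≤ V' := Finset.prod_nonneg fun p hp => hv0 p (hTS hp)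
      have hs0 : 0 ≤ ∑ p ∈ T, τ p := Finset.sum_nonneg fun p hp => hτ0 p (hTS hp)
      have hE0 : 1 ≤ Real.exp (2 * b q + τ q) :=
        Real.one_le_exp (by linarith [hb0 q hqS, hτ0 q hqS])
      set Ex := Real.exp (∑ p ∈ T, (2 * b p + τ p)) with hEx
      have hEx0 : 0 < Ex := Real.exp_pos _
      have h1 : v q * V' - ‖w q‖ ^ 2 * W' = (v q - ‖w q‖ ^ 2) * V' + ‖w q‖ ^ 2 * (V' - W') := by
        ring
      rw [h1]
      have h2 : (v q - ‖w q‖ ^ 2) * V' ≤ τ q * Ex := by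
        calc (v q - ‖w q‖ ^ 2) * V' ≤ τ q * V' := by
              have := hvw q hqS
              gcongr
          _ ≤ τ q * Ex := by have := hτ0 q hqS; gcongr
      have h3 : ‖w q‖ ^ 2 * (V' - W') ≤ Real.exp (2 * b q + τ q) * ((∑ p ∈ T, τ p) * Ex) := by
        calc ‖w q‖ ^ 2 * (V' - W') ≤ ‖w q‖ ^ 2 * ((∑ p ∈ T, τ p) * Ex) := by gcongr
          _ ≤ _ := by
            have := hw1 q hqS
            gcongr
      have h4 : τ q * Ex ≤ τ q * (Real.exp (2 * b q + τ q) * Ex) := by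
        have := hτ0 q hqS
        have : Ex ≤ Real.exp (2 * b q + τ q) * Ex := by nlinarith
        gcongr
      calc _ ≤ τ q * (Real.exp (2 * b q + τ q) * Ex) +
            Real.exp (2 * b q + τ q) * ((∑ p ∈ T, τ p) * Ex) := by linarith
        _ = _ := by ring
  have hprod : ‖∏ p ∈ S, w p - 1‖ ≤ Real.exp (∑ p ∈ S, b p) - 1 := by
    have h1 := Finset.norm_prod_one_add_sub_one_le S (fun p => w p - 1)
    have h2 : ∏ p ∈ S, (1 + (w p - 1)) = ∏ p ∈ S, w p :=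
      Finset.prod_congr rfl fun p _ => by ring
    rw [h2] at h1
    refine h1.trans ?_
    have : Real.exp (∑ p ∈ S, ‖w p - 1‖) ≤ Real.exp (∑ p ∈ S, b p) :=
      Real.exp_le_exp.2 (Finset.sum_le_sum fun p hp => hb p hp)
    linarith
  have h5 : ‖∏ p ∈ S, w p - 1‖ ^ 2 ≤ (Real.exp (∑ p ∈ S, b p) - 1) ^ 2 :=
    pow_le_pow_left₀ (norm_nonneg _) hprod 2
  have h6 := key S (Finset.Subset.refl _)
  linarith

/-- fourth moment of a product -/
theorem prod_four {S : Finset ℕ} (hS : ∀ p ∈ S, 1 ≤ p) (g : ℕ → ℝ → ℂ) (b : ℕ → ℝ)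
    (hb : ∀ p ∈ S, E1 p (fun x => ‖g p x‖ ^ 4) ≤ 1 + b p) :
    EE S (fun ω => ‖∏ p ∈ S, g p (ω p)‖ ^ 4) ≤ Real.exp (∑ p ∈ S, b p) := by
  have h1 : (fun ω : ℕ → ℝ => ‖∏ p ∈ S, g p (ω p)‖ ^ 4) = fun ω =>
      ∏ p ∈ S, ‖g p (ω p)‖ ^ 4 := by
    funext ω
    rw [Finset.prod_pow, ← norm_prod]
  rw [h1, EE_prod S (fun p x => ‖g p x‖ ^ 4), Real.exp_sum]
  refine Finset.prod_le_prod (fun p hp => ?_) fun p hp => ?_
  · have := E1_mono (hS p hp) (G := fun _ => 0) (H := fun x => ‖g p x‖ ^ 4)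
      (fun x _ => by positivity)
    rwa [E1_const] at this
  · have := Real.add_one_le_exp (b p)
    linarith [hb p hp]

/-- `(∑ log p / p)² ≤ 16 ∑ log² p / p` -/
lemma sum_log_sq {S : Finset ℕ} (hS : ∀ p ∈ S, p.Prime) :
    (∑ p ∈ S, Real.log p / p) ^ 2 ≤ 16 * ∑ p ∈ S, Real.log p ^ 2 / p := by
  classical
  have h0 : ∀ p : ℕ, 0 ≤ Real.log p / p := fun p => by
    have := Real.log_natCast_nonneg p
    positivity
  have h1 : (∑ p ∈ S, Real.log p / p) ^ 2 = ∑ p ∈ S, ∑ q ∈ S, Real.log p / p * (Real.log q / q) := by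
    rw [sq, Finset.sum_mul_sum]
  have h2 : ∀ p ∈ S, ∑ q ∈ S.filter (fun q => q ≤ p), Real.log p / p * (Real.log q / q) ≤
      8 * (Real.log p ^ 2 / p) := by
    intro p hp
    rw [← Finset.mul_sum]
    have h3 := sum_log_div (S := S.filter (fun q => q ≤ p)) (x := p)
      (fun q hq => hS q (mem_filter.1 hq).1) (by exact_mod_cast (hS p hp).two_le)
      (fun q hq => by exact_mod_cast (mem_filter.1 hq).2)
    calc Real.log p / p * ∑ q ∈ S.filter (fun q => q ≤ p), Real.log q / q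
        ≤ Real.log p / p * (8 * Real.log p) := by
          have := h0 p
          gcongr
      _ = _ := by ring
  have h3 : ∑ p ∈ S, ∑ q ∈ S, Real.log p / p * (Real.log q / q) ≤
      ∑ p ∈ S, ∑ q ∈ S.filter (fun q => q ≤ p), Real.log p / p * (Real.log q / q) +
      ∑ p ∈ S, ∑ q ∈ S.filter (fun q => p ≤ q), Real.log p / p * (Real.log q / q) := by
    rw [← Finset.sum_add_distrib]
    refine Finset.sum_le_sum fun p _ => ?_
    rw [Finset.sum_filter, Finset.sum_filter, ← Finset.sum_add_distrib]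
    refine Finset.sum_le_sum fun q _ => ?_
    have hx : 0 ≤ Real.log p / p * (Real.log q / q) := mul_nonneg (h0 p) (h0 q)
    rcases le_total q p with h | h
    · rw [if_pos h]; split_ifs <;> linarith
    · rw [if_pos h]; split_ifs <;> linarith
  have h4 : ∑ p ∈ S, ∑ q ∈ S.filter (fun q => p ≤ q), Real.log p / p * (Real.log q / q) =
      ∑ q ∈ S, ∑ p ∈ S.filter (fun p => p ≤ q), Real.log q / q * (Real.log p / p) := by
    simp_rw [Finset.sum_filter]
    rw [Finset.sum_comm]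
    refine Finset.sum_congr rfl fun q _ => Finset.sum_congr rfl fun p _ => ?_
    split_ifs
    · ring
    · rfl
  rw [h1]
  rw [h4] at h3
  have h5 := Finset.sum_le_sum h2
  rw [← Finset.mul_sum] at h5
  linarith

end P004E.M
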