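import Vale.Agent.P004E.H357.M3
import Vale.Agent.P004G.H293.R2

/-!
# P004E, module M (part 4): the block is close to the inverse of the Euler product
-/

open Finset Real

namespace P004E.M

open P004.H293 (EE E1 EE_nonneg EE_mono EE_add EE_sub EE_mul_left EE_const EE_prod E1_const
  E1_mono sum_log_div)
open P004G
open P004G.H293 (ratio_bound den_lower' E1_normSq_le Lp Lp_eq tt inv_sqrt_le inv_sqrt_sq
  norm_tt_le norm_tt_le' abs_lam_le three_le tt_diff)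
open P004G.E3W (E1c EEc EEc_prod EEc_re EE_cs tt_exp K32 sum32 K32_nonneg)

variable [Crv]

/-- the coefficients of the linear form -/
noncomputable def aa (p : ℕ) : ℝ := lam p * (p : ℝ) ^ (-(1 / 2) : ℝ)

/-- the normalising factor -/
noncomputable def kap (I : Finset ℕ) : ℝ := Real.exp (∑ p ∈ I, (1 / (p : ℝ)) * (1 - lam p ^ 2 / 2))

/-- the tilted factor -/
noncomputable def gg (ζ : ℂ) (p : ℕ) (x : ℝ) : ℂ :=
  (Real.exp (-(lam p * x * (p : ℝ) ^ (-(1 / 2) : ℝ)) +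
    ((p : ℝ) ^ (-(1 / 2) : ℝ)) ^ 2 * (1 - lam p ^ 2 / 2)) : ℂ) * Lp p (1 + ζ) x

lemma prod_gg {I : Finset ℕ} (hI : ∀ p ∈ I, p.Prime) (ζ : ℂ) (ω : ℕ → ℝ) (q : ℝ) :
    ((kap I * q : ℝ) : ℂ) * (∏ p ∈ I, Lp p (1 + ζ) (ω p)) =
      ((q * Real.exp (lin I aa ω) : ℝ) : ℂ) * ∏ p ∈ I, gg ζ p (ω p) := by
  unfold gg
  rw [Finset.prod_mul_distrib, ← mul_assoc]
  congr 1
  rw [← Complex.ofReal_prod, ← Real.exp_sum, ← Complex.ofReal_mul]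
  congr 1
  rw [mul_assoc, ← Real.exp_add, mul_comm]
  unfold kap
  congr 2
  unfold lin aa
  rw [← Finset.sum_add_distrib]
  refine Finset.sum_congr rfl fun p hp => ?_
  rw [inv_sqrt_sq (hI p hp).pos]
  ring

omit [Crv] in
lemma r3_eq {p : ℕ} (hp : 0 < p) : ((p : ℝ) ^ (-(1 / 2) : ℝ)) ^ 3 = (p : ℝ) ^ (-3 / 2 : ℝ) := by
  rw [← Real.rpow_natCast, ← Real.rpow_mul (by positivity)]
  norm_num

/-- the distance -/
noncomputable def dd (ζ : ℂ) (p : ℕ) : ℝ := ‖tt p ζ - (((p : ℝ) ^ (-(1 / 2) : ℝ) : ℝ) : ℂ)‖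

lemma dd_mul {p : ℕ} (hp : p.Prime) {ζ : ℂ} (hζ : 0 ≤ ζ.re) :
    dd ζ p * (p : ℝ) ^ (-(1 / 2) : ℝ) ≤ 2 * (‖ζ‖ * (Real.log p / p)) := by
  have h := tt_diff hp (z := ζ) (z₀ := 0) hζ le_rfl
  have e : tt p ((0 : ℝ) : ℂ) = (((p : ℝ) ^ (-(1 / 2) : ℝ) : ℝ) : ℂ) := by
    rw [P004G.H293.tt_ofReal]; simp
  rw [e] at h
  unfold dd
  refine h.trans ?_
  have hp0 : (0 : ℝ) < p := by exact_mod_cast hp.pos
  rw [Complex.ofReal_zero, sub_zero]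
  have : min 1 (‖ζ‖ * Real.log p) / p ≤ ‖ζ‖ * (Real.log p / p) := by
    rw [← mul_div_assoc]
    gcongr
    exact min_le_right _ _
  linarith

omit [Crv] in
lemma dd_nonneg (ζ : ℂ) (p : ℕ) : 0 ≤ dd ζ p := norm_nonneg _

lemma dd_sq {p : ℕ} (hp : p.Prime) {ζ : ℂ} (hζ : 0 ≤ ζ.re) :
    dd ζ p ^ 2 ≤ 4 * (‖ζ‖ ^ 2 * (Real.log p ^ 2 / p)) := by
  have h := dd_mul hp hζ
  have hp0 : (0 : ℝ) < p := by exact_mod_cast hp.pos
  have hr : 0 < (p : ℝ) ^ (-(1 / 2) : ℝ) := Real.rpow_pos_of_pos hp0 _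
  have hr2 := inv_sqrt_sq hp.pos
  have h2 : dd ζ p ≤ 2 * ‖ζ‖ * Real.log p * (p : ℝ) ^ (-(1 / 2) : ℝ) := by
    have h3 : dd ζ p * (p : ℝ) ^ (-(1 / 2) : ℝ) ≤
        (2 * ‖ζ‖ * Real.log p * (p : ℝ) ^ (-(1 / 2) : ℝ)) * (p : ℝ) ^ (-(1 / 2) : ℝ) := by
      calc _ ≤ _ := h
        _ = 2 * ‖ζ‖ * Real.log p * (1 / p) := by ring
        _ = 2 * ‖ζ‖ * Real.log p * ((p : ℝ) ^ (-(1 / 2) : ℝ)) ^ 2 := by rw [hr2]
        _ = _ := by ring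
    exact le_of_mul_le_mul_right h3 hr
  calc dd ζ p ^ 2 ≤ (2 * ‖ζ‖ * Real.log p * (p : ℝ) ^ (-(1 / 2) : ℝ)) ^ 2 :=
        pow_le_pow_left₀ (dd_nonneg _ _) h2 2
    _ = 4 * (‖ζ‖ ^ 2 * (Real.log p ^ 2 * ((p : ℝ) ^ (-(1 / 2) : ℝ)) ^ 2)) := by ring
    _ = _ := by rw [hr2]; ring

lemma dd_le {p : ℕ} (hp3 : 3 ≤ p) {ζ : ℂ} (hζ : 0 ≤ ζ.re) :
    dd ζ p ≤ 2 * (p : ℝ) ^ (-(1 / 2) : ℝ) := by
  unfold dd
  have h1 := norm_tt_le' hp3 hζ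
  have h2 : ‖(((p : ℝ) ^ (-(1 / 2) : ℝ) : ℝ) : ℂ)‖ = (p : ℝ) ^ (-(1 / 2) : ℝ) := by
    rw [Complex.norm_real, Real.norm_eq_abs, abs_of_nonneg (by positivity)]
  refine (norm_sub_le _ _).trans ?_
  linarith

/-- the hypotheses of the coordinate lemmas -/
lemma gg_data {p : ℕ} (hp : p.Prime) (hp3 : 3 ≤ p) {ζ : ℂ} (hζ : 0 ≤ ζ.re) :
    ‖gg ζ p 0 - 1‖ ≤ 2 * ((p : ℝ) ^ (-(1 / 2) : ℝ)) ^ 2 ∧
    ‖gg ζ p 1 - (1 + lam p * (tt p ζ - (((p : ℝ) ^ (-(1 / 2) : ℝ) : ℝ) : ℂ)))‖ ≤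
      80 * (dd ζ p * (p : ℝ) ^ (-(1 / 2) : ℝ)) + 8400 * ((p : ℝ) ^ (-(1 / 2) : ℝ)) ^ 3 ∧
    ‖gg ζ p (-1) - (1 - lam p * (tt p ζ - (((p : ℝ) ^ (-(1 / 2) : ℝ) : ℝ) : ℂ)))‖ ≤
      80 * (dd ζ p * (p : ℝ) ^ (-(1 / 2) : ℝ)) + 8400 * ((p : ℝ) ^ (-(1 / 2) : ℝ)) ^ 3 := by
  have hl := abs_lam_le pfCoef hp
  set r : ℝ := (p : ℝ) ^ (-(1 / 2) : ℝ) with hr
  have hr0 : 0 ≤ r := by positivity
  have hr1 : r ≤ 3 / 5 := inv_sqrt_le hp3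
  have ht : ‖tt p ζ‖ ≤ r := norm_tt_le' hp3 hζ
  refine ⟨?_, ?_, ?_⟩
  · have e : gg ζ p 0 - 1 = ((Real.exp (r ^ 2 * (1 - lam p ^ 2 / 2)) - 1 : ℝ) : ℂ) := by
      unfold gg
      rw [Lp_eq hp.pos, ← hr]
      simp
    rw [e, Complex.norm_real, Real.norm_eq_abs]
    exact loc0 hl hr0 hr1
  · have h := loc hl hr0 hr1 ht
    have e : gg ζ p 1 = (Real.exp (-(lam p * r) + r ^ 2 * (1 - lam p ^ 2 / 2)) : ℂ) *
        (1 - lam p * tt p ζ + tt p ζ ^ 2)⁻¹ := by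
      unfold gg
      rw [Lp_eq hp.pos, ← hr, mul_one, Complex.ofReal_one, one_mul]
    rw [e]
    exact h
  · have h := loc (l := -lam p) (by rwa [abs_neg]) hr0 hr1 ht
    have e : gg ζ p (-1) = (Real.exp (-(-lam p * r) + r ^ 2 * (1 - (-lam p) ^ 2 / 2)) : ℂ) *
        (1 - ((-lam p : ℝ) : ℂ) * tt p ζ + tt p ζ ^ 2)⁻¹ := by
      unfold gg
      rw [Lp_eq hp.pos, ← hr]
      congr 1
      · congr 2
        ring
      · congr 1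
        push_cast
        ring
    rw [e]
    have e2 : (1 : ℂ) - lam p * (tt p ζ - (r : ℂ)) = 1 + ((-lam p : ℝ) : ℂ) * (tt p ζ - (r : ℂ)) := by
      push_cast; ring
    rw [e2]
    exact h

lemma gg_coord {p : ℕ} (hp : p.Prime) (hp3 : 3 ≤ p) {ζ : ℂ} (hζ : 0 ≤ ζ.re) :
    ‖E1c p (gg ζ p) - 1‖ ≤ 160 * (‖ζ‖ * (Real.log p / p)) + 9000 * (p : ℝ) ^ (-3 / 2 : ℝ) ∧
    E1 p (fun x => ‖gg ζ p x - 1‖ ^ 2) ≤
      20000 * (‖ζ‖ ^ 2 * (Real.log p ^ 2 / p)) + 100000000 * (p : ℝ) ^ (-3 / 2 : ℝ) ∧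
    E1 p (fun x => ‖gg ζ p x‖ ^ 4) ≤
      1 + 200000000000000 * (‖ζ‖ * (Real.log p / p) + (p : ℝ) ^ (-3 / 2 : ℝ)) := by
  obtain ⟨h0, h1, h2⟩ := gg_data hp hp3 hζ
  have hp1 : 1 ≤ p := hp.one_lt.le
  have hr0 : 0 ≤ (p : ℝ) ^ (-(1 / 2) : ℝ) := by positivity
  have hr1 := inv_sqrt_le hp3
  have hr2 := inv_sqrt_sq hp.pos
  have hd0 := dd_nonneg ζ p
  have hd1 := dd_le hp3 hζ
  have hl := abs_lam_le pfCoef hp
  have ha : ‖(lam p : ℂ) * (tt p ζ - (((p : ℝ) ^ (-(1 / 2) : ℝ) : ℝ) : ℂ))‖ ≤ 2 * dd ζ p := by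
    rw [norm_mul, Complex.norm_real, Real.norm_eq_abs]
    unfold dd
    gcongr
  have a1 := coord1 hp1 hr0 hr1 hr2 h0 h1 h2
  have a2 := coord2 hp1 hr0 hr1 hd0 ha h0 h1 h2
  have a3 := coord3 hp1 hr0 hr1 hr2 hd0 hd1 ha h0 h1 h2
  have b1 := dd_mul hp hζ
  have b2 := dd_sq hp hζ
  have b3 := r3_eq hp.pos
  rw [b3] at a1 a2 a3
  have b4 : 0 ≤ (p : ℝ) ^ (-3 / 2 : ℝ) := by positivity
  refine ⟨by linarith, by linarith, by linarith⟩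

omit [Crv] in
lemma A1_le {I : Finset ℕ} (hI : ∀ p ∈ I, p.Prime) {T : ℝ} (hT : 1 ≤ T)
    (hIT : ∀ p ∈ I, (p : ℝ) ≤ Real.exp T) {ζ : ℂ} (hζ : ‖ζ‖ * T ≤ 1) :
    ‖ζ‖ * (∑ p ∈ I, Real.log p / p) ≤ 8 ∧ ‖ζ‖ ^ 2 * (∑ p ∈ I, Real.log p ^ 2 / p) ≤ 8 := by
  have he : (2 : ℝ) ≤ Real.exp T := by
    have := Real.add_one_le_exp T
    linarith
  have h3 := sum_log_div (S := I) hI he hIT
  rw [Real.log_exp] at h3
  have h1 : ‖ζ‖ * (∑ p ∈ I, Real.log p / p) ≤ 8 := by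
    calc ‖ζ‖ * (∑ p ∈ I, Real.log p / p) ≤ ‖ζ‖ * (8 * T) := by gcongr
      _ = 8 * (‖ζ‖ * T) := by ring
      _ ≤ 8 * 1 := by gcongr
      _ = 8 := by ring
  refine ⟨h1, ?_⟩
  have h4 : ∑ p ∈ I, Real.log p ^ 2 / p ≤ T * ∑ p ∈ I, Real.log p / p := by
    rw [Finset.mul_sum]
    refine Finset.sum_le_sum fun p hp => ?_
    have hp0 : (0 : ℝ) < p := by exact_mod_cast (hI p hp).pos
    have h4 : Real.log p ≤ T := (Real.log_le_iff_le_exp hp0).2 (hIT p hp)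
    have h5 : 0 ≤ Real.log p := Real.log_natCast_nonneg p
    rw [sq, mul_div_assoc]
    gcongr
  calc ‖ζ‖ ^ 2 * (∑ p ∈ I, Real.log p ^ 2 / p) ≤ ‖ζ‖ ^ 2 * (T * ∑ p ∈ I, Real.log p / p) := by
        gcongr
    _ = (‖ζ‖ * T) * (‖ζ‖ * ∑ p ∈ I, Real.log p / p) := by ring
    _ ≤ 1 * 8 := by
        have : 0 ≤ ‖ζ‖ * ∑ p ∈ I, Real.log p / p := mul_nonneg (norm_nonneg _)
          (Finset.sum_nonneg fun p _ => div_nonneg (Real.log_natCast_nonneg p) (by positivity))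
        gcongr
    _ = 8 := by ring

/-- the constant -/
noncomputable def X1 : ℝ := Real.exp (300000000000000000 * (1 + K32))

/-- `E ‖G - 1‖²` and `E ‖G‖⁴` -/
theorem G_main {I : Finset ℕ} (hI : ∀ p ∈ I, p.Prime ∧ 3 ≤ p) {T : ℝ} (hT : 1 ≤ T)
    (hIT : ∀ p ∈ I, (p : ℝ) ≤ Real.exp T) {ζ : ℂ} (h0 : 0 ≤ ζ.re) (hζ : ‖ζ‖ * T ≤ 1) :
    EE I (fun ω => ‖∏ p ∈ I, gg ζ p (ω p) - 1‖ ^ 2) ≤ 1000000000 * (1 + K32) * X1 *
      (‖ζ‖ ^ 2 * (∑ p ∈ I, Real.log p ^ 2 / p) + ∑ p ∈ I, (p : ℝ) ^ (-3 / 2 : ℝ)) ∧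
    EE I (fun ω => ‖∏ p ∈ I, gg ζ p (ω p)‖ ^ 4) ≤ X1 := by
  have hI1 : ∀ p ∈ I, 1 ≤ p := fun p hp => (hI p hp).1.one_lt.le
  obtain ⟨c1, c2⟩ := A1_le (fun p hp => (hI p hp).1) hT hIT hζ
  have c3 : ∑ p ∈ I, (p : ℝ) ^ (-3 / 2 : ℝ) ≤ K32 := by
    have := sum32 I
    have e : (-3 / 2 : ℝ) = -(3 / 2) := by norm_num
    rw [e]
    exact this
  have c4 := sum_log_sq (fun p hp => (hI p hp).1) (S := I)
  have hK := K32_nonneg
  set A1 : ℝ := ‖ζ‖ * (∑ p ∈ I, Real.log p / p) with hA1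
  set A2 : ℝ := ‖ζ‖ ^ 2 * (∑ p ∈ I, Real.log p ^ 2 / p) with hA2
  set A3 : ℝ := ∑ p ∈ I, (p : ℝ) ^ (-3 / 2 : ℝ) with hA3
  have hA10 : 0 ≤ A1 := mul_nonneg (norm_nonneg _)
    (Finset.sum_nonneg fun p _ => div_nonneg (Real.log_natCast_nonneg p) (by positivity))
  have hA20 : 0 ≤ A2 := by
    have : 0 ≤ ∑ p ∈ I, Real.log p ^ 2 / p := Finset.sum_nonneg fun p _ => by positivity
    positivity
  have hA30 : 0 ≤ A3 := Finset.sum_nonneg fun p _ => by positivity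
  have hA12 : A1 ^ 2 ≤ 16 * A2 := by
    rw [hA1, hA2, mul_pow]
    calc _ ≤ ‖ζ‖ ^ 2 * (16 * ∑ p ∈ I, Real.log p ^ 2 / p) := by gcongr
      _ = _ := by ring
  have s1 : ∑ p ∈ I, (160 * (‖ζ‖ * (Real.log p / p)) + 9000 * (p : ℝ) ^ (-3 / 2 : ℝ)) =
      160 * A1 + 9000 * A3 := by
    rw [Finset.sum_add_distrib, ← Finset.mul_sum, ← Finset.mul_sum, ← Finset.mul_sum]
  have s2 : ∑ p ∈ I, (20000 * (‖ζ‖ ^ 2 * (Real.log p ^ 2 / p)) +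
      100000000 * (p : ℝ) ^ (-3 / 2 : ℝ)) = 20000 * A2 + 100000000 * A3 := by
    rw [Finset.sum_add_distrib, ← Finset.mul_sum, ← Finset.mul_sum, ← Finset.mul_sum]
  have s3 : ∑ p ∈ I, 200000000000000 * (‖ζ‖ * (Real.log p / p) + (p : ℝ) ^ (-3 / 2 : ℝ)) =
      200000000000000 * (A1 + A3) := by
    rw [← Finset.mul_sum, Finset.sum_add_distrib, ← Finset.mul_sum]
  have hX1 : 1 ≤ X1 := Real.one_le_exp (by positivity)
  refine ⟨?_, ?_⟩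
  · have h := prod_sub_one hI1 (gg ζ) _ _ (fun p hp => (gg_coord (hI p hp).1 (hI p hp).2 h0).1)
      (fun p hp => (gg_coord (hI p hp).1 (hI p hp).2 h0).2.1)
    have s4 : ∑ p ∈ I, (2 * (160 * (‖ζ‖ * (Real.log p / p)) + 9000 * (p : ℝ) ^ (-3 / 2 : ℝ)) +
        (20000 * (‖ζ‖ ^ 2 * (Real.log p ^ 2 / p)) + 100000000 * (p : ℝ) ^ (-3 / 2 : ℝ))) =
        2 * (160 * A1 + 9000 * A3) + (20000 * A2 + 100000000 * A3) := by
      rw [Finset.sum_add_distrib, ← Finset.mul_sum, s1, s2]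
    rw [s4, s1, s2] at h
    refine h.trans ?_
    have e1 : Real.exp (2 * (160 * A1 + 9000 * A3) + (20000 * A2 + 100000000 * A3)) ≤ X1 := by
      apply Real.exp_le_exp.2
      linarith
    have hB0 : 0 ≤ 160 * A1 + 9000 * A3 := by positivity
    have e2 : (Real.exp (160 * A1 + 9000 * A3) - 1) ^ 2 ≤ (160 * A1 + 9000 * A3) ^ 2 * X1 := by
      have h1 : Real.exp (160 * A1 + 9000 * A3) - 1 ≤
          (160 * A1 + 9000 * A3) * Real.exp (160 * A1 + 9000 * A3) := by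
        set x := 160 * A1 + 9000 * A3
        have h2 := Real.add_one_le_exp (-x)
        have h3 : Real.exp x * Real.exp (-x) = 1 := by rw [← Real.exp_add]; simp
        nlinarith [Real.exp_pos x]
      have h2 : 0 ≤ Real.exp (160 * A1 + 9000 * A3) - 1 := by
        have := Real.add_one_le_exp (160 * A1 + 9000 * A3)
        linarith
      calc (Real.exp (160 * A1 + 9000 * A3) - 1) ^ 2 ≤
            ((160 * A1 + 9000 * A3) * Real.exp (160 * A1 + 9000 * A3)) ^ 2 :=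
            pow_le_pow_left₀ h2 h1 2
        _ = (160 * A1 + 9000 * A3) ^ 2 * Real.exp (2 * (160 * A1 + 9000 * A3)) := by
            rw [mul_pow, ← Real.exp_nat_mul]; norm_num
        _ ≤ _ := by
            have : Real.exp (2 * (160 * A1 + 9000 * A3)) ≤ X1 := by
              apply Real.exp_le_exp.2
              linarith
            gcongr
    have e3 : (160 * A1 + 9000 * A3) ^ 2 ≤ 1000000 * A2 + 200000000 * K32 * A3 := by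
      have h1 : (160 * A1 + 9000 * A3) ^ 2 ≤ 2 * ((160 * A1) ^ 2 + (9000 * A3) ^ 2) := by
        nlinarith [sq_nonneg (160 * A1 - 9000 * A3)]
      have h2 : A3 ^ 2 ≤ K32 * A3 := by rw [sq]; gcongr
      have h3 : 2 * ((160 * A1) ^ 2 + (9000 * A3) ^ 2) = 51200 * A1 ^ 2 + 162000000 * A3 ^ 2 := by
        ring
      have h4 : 0 ≤ K32 * A3 := by positivity
      linarith
    calc (20000 * A2 + 100000000 * A3) *
          Real.exp (2 * (160 * A1 + 9000 * A3) + (20000 * A2 + 100000000 * A3)) +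
          (Real.exp (160 * A1 + 9000 * A3) - 1) ^ 2
        ≤ (20000 * A2 + 100000000 * A3) * X1 + (1000000 * A2 + 200000000 * K32 * A3) * X1 := by
          refine add_le_add (by gcongr) (e2.trans ?_)
          gcongr
      _ = ((20000 * A2 + 100000000 * A3) + (1000000 * A2 + 200000000 * K32 * A3)) * X1 := by ring
      _ ≤ (1000000000 * (1 + K32) * (A2 + A3)) * X1 := by
          have h4 : 0 ≤ K32 * A3 := by positivity
          have h5 : 0 ≤ K32 * A2 := by positivity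
          have : (20000 * A2 + 100000000 * A3) + (1000000 * A2 + 200000000 * K32 * A3) ≤
              1000000000 * (1 + K32) * (A2 + A3) := by nlinarith
          gcongr
      _ = _ := by ring
  · have h := prod_four hI1 (gg ζ) _ (fun p hp => (gg_coord (hI p hp).1 (hI p hp).2 h0).2.2)
    rw [s3] at h
    refine h.trans ?_
    unfold X1
    apply Real.exp_le_exp.2
    nlinarith

/-- the constant of `close` -/
noncomputable def CM : ℝ := 10000000000 * (1 + K32) * X1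

lemma one_le_CM : 1 ≤ CM := by
  have hK := K32_nonneg
  have hX1 : 1 ≤ X1 := Real.one_le_exp (by positivity)
  unfold CM
  nlinarith

theorem close_main {η l C Z : ℝ} {R : ℝ → ℝ} {Q : Polynomial ℝ} (D : Psi η l C Z R Q)
    {I : Finset ℕ} (hI : ∀ p ∈ I, p.Prime ∧ 3 ≤ p) {T : ℝ} (hT : 1 ≤ T)
    (hIT : ∀ p ∈ I, (p : ℝ) ≤ Real.exp T) (hV : ∑ p ∈ I, aa p ^ 2 ≤ 2 * l)
    {ζ : ℂ} (h0 : 0 ≤ ζ.re) (hζ : ‖ζ‖ * T ≤ 1) :
    EE I (fun ω => ‖((kap I * Q.eval (lin I aa ω) : ℝ) : ℂ) *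
        (∏ p ∈ I, Lp p (1 + ζ) (ω p)) - 1‖ ^ 2) ≤
      CM * (Real.exp (-(η ^ 2 / 1024) * l) + ‖ζ‖ ^ 2 * (∑ p ∈ I, Real.log p ^ 2 / p) +
        ∑ p ∈ I, (p : ℝ) ^ (-3 / 2 : ℝ)) := by
  have hI1 : ∀ p ∈ I, 1 ≤ p := fun p hp => (hI p hp).1.one_lt.le
  obtain ⟨g1, g2⟩ := G_main hI hT hIT h0 hζ
  have e1 := D.errM hI1 aa hV
  have e2 := D.barM hI1 aa hV
  have hK := K32_nonneg
  have hX1 : 1 ≤ X1 := Real.one_le_exp (by positivity)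
  set G : (ℕ → ℝ) → ℂ := fun ω => ∏ p ∈ I, gg ζ p (ω p) with hG
  set E : (ℕ → ℝ) → ℝ := fun ω => Q.eval (lin I aa ω) * Real.exp (lin I aa ω) - R (lin I aa ω)
    with hE
  set y : ℝ := ‖ζ‖ ^ 2 * (∑ p ∈ I, Real.log p ^ 2 / p) + ∑ p ∈ I, (p : ℝ) ^ (-3 / 2 : ℝ) with hy
  have hy0 : 0 ≤ y := by
    have : 0 ≤ ∑ p ∈ I, Real.log p ^ 2 / p := Finset.sum_nonneg fun p _ => by positivity
    have : 0 ≤ ∑ p ∈ I, (p : ℝ) ^ (-3 / 2 : ℝ) := Finset.sum_nonneg fun p _ => by positivity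
    positivity
  have h1 : EE I (fun ω => ‖((kap I * Q.eval (lin I aa ω) : ℝ) : ℂ) *
        (∏ p ∈ I, Lp p (1 + ζ) (ω p)) - 1‖ ^ 2) ≤
      EE I (fun ω => 3 * (E ω ^ 2 * ‖G ω‖ ^ 2) + (3 * ‖G ω - 1‖ ^ 2 +
        3 * (1 - R (lin I aa ω)) ^ 2)) := by
    refine EE_mono hI1 fun ω _ => ?_
    rw [prod_gg (fun p hp => (hI p hp).1)]
    have hR := D.hR (lin I aa ω)
    have e3 : ((Q.eval (lin I aa ω) * Real.exp (lin I aa ω) : ℝ) : ℂ) *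
        (∏ p ∈ I, gg ζ p (ω p)) - 1 = (E ω : ℂ) * G ω + ((R (lin I aa ω) : ℂ) * (G ω - 1) +
          ((R (lin I aa ω) - 1 : ℝ) : ℂ)) := by
      simp only [hE, hG]
      push_cast
      ring
    rw [e3]
    have n1 : ‖(E ω : ℂ) * G ω + ((R (lin I aa ω) : ℂ) * (G ω - 1) +
          ((R (lin I aa ω) - 1 : ℝ) : ℂ))‖ ≤
        |E ω| * ‖G ω‖ + (‖G ω - 1‖ + |1 - R (lin I aa ω)|) := by
      refine (norm_add_le _ _).trans (add_le_add ?_ ((norm_add_le _ _).trans (add_le_add ?_ ?_)))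
      · rw [norm_mul, Complex.norm_real, Real.norm_eq_abs]
      · rw [norm_mul, Complex.norm_real, Real.norm_eq_abs, abs_of_nonneg hR.1]
        calc R (lin I aa ω) * ‖G ω - 1‖ ≤ 1 * ‖G ω - 1‖ := by gcongr; exact hR.2
          _ = _ := one_mul _
      · rw [Complex.norm_real, Real.norm_eq_abs, abs_sub_comm]
    refine (pow_le_pow_left₀ (norm_nonneg _) n1 2).trans ?_
    have n2 : ∀ a b c : ℝ, (a + (b + c)) ^ 2 ≤ 3 * a ^ 2 + (3 * b ^ 2 + 3 * c ^ 2) := by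
      intro a b c
      nlinarith [sq_nonneg (a - b), sq_nonneg (b - c), sq_nonneg (a - c)]
    refine (n2 _ _ _).trans (le_of_eq ?_)
    rw [mul_pow, sq_abs, sq_abs]
  rw [EE_add I (fun ω => 3 * (E ω ^ 2 * ‖G ω‖ ^ 2)) (fun ω => 3 * ‖G ω - 1‖ ^ 2 +
      3 * (1 - R (lin I aa ω)) ^ 2), EE_add I (fun ω => 3 * ‖G ω - 1‖ ^ 2)
      (fun ω => 3 * (1 - R (lin I aa ω)) ^ 2), EE_mul_left, EE_mul_left, EE_mul_left] at h1
  have h2 := EE_cs hI1 (fun ω => E ω ^ 2) (fun ω => ‖G ω‖ ^ 2)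
  simp only [← pow_mul] at h2
  norm_num only at h2
  have hl := D.hl
  have hη := D.hη
  have hη1 := D.hη1
  have h3 : √(EE I (fun ω => E ω ^ 4)) ≤ 2 * Real.exp (-(20 * l)) := by
    refine Real.sqrt_le_iff.2 ⟨by positivity, ?_⟩
    calc EE I (fun ω => E ω ^ 4) ≤ 2 * Real.exp (-(40 * l)) := e1
      _ ≤ 4 * Real.exp (-(40 * l)) := by have := Real.exp_pos (-(40 * l)); linarith
      _ = (2 * Real.exp (-(20 * l))) ^ 2 := by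
          rw [mul_pow, ← Real.exp_nat_mul]
          have : ((2 : ℕ) : ℝ) * (-(20 * l)) = -(40 * l) := by push_cast; ring
          rw [this]; norm_num
  have h4 : √(EE I (fun ω => ‖G ω‖ ^ 4)) ≤ X1 := by
    refine Real.sqrt_le_iff.2 ⟨by linarith, ?_⟩
    calc _ ≤ X1 := g2
      _ ≤ X1 ^ 2 := by nlinarith
  have h5 : Real.exp (-(20 * l)) ≤ Real.exp (-(η ^ 2 / 1024) * l) := by
    apply Real.exp_le_exp.2
    have : η ^ 2 ≤ 1 := pow_le_one₀ hη.le hη1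
    nlinarith
  have h6 : EE I (fun ω => E ω ^ 2 * ‖G ω‖ ^ 2) ≤ 2 * X1 * Real.exp (-(η ^ 2 / 1024) * l) := by
    calc _ ≤ _ := h2
      _ ≤ (2 * Real.exp (-(20 * l))) * X1 := by gcongr
      _ ≤ (2 * Real.exp (-(η ^ 2 / 1024) * l)) * X1 := by gcongr
      _ = _ := by ring
  have h7 : -(η ^ 2 / 1024 * l) = -(η ^ 2 / 1024) * l := by ring
  rw [h7] at e2
  set ex := Real.exp (-(η ^ 2 / 1024) * l) with hex
  have hex0 : 0 < ex := Real.exp_pos _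
  have hfin : 3 * (2 * X1 * ex) + (3 * (1000000000 * (1 + K32) * X1 * y) + 3 * (3 * ex)) ≤
      CM * (ex + y) := by
    unfold CM
    have k1 : X1 * ex ≤ (1 + K32) * X1 * ex := by
      have : 0 ≤ K32 * (X1 * ex) := by positivity
      nlinarith
    have k2 : ex ≤ X1 * ex := by nlinarith
    have k3 : 0 ≤ (1 + K32) * X1 * y := by positivity
    nlinarith
  calc _ ≤ _ := h1
    _ ≤ 3 * (2 * X1 * ex) + (3 * (1000000000 * (1 + K32) * X1 * y) + 3 * (3 * ex)) := by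
        gcongr
    _ ≤ CM * (ex + y) := hfin
    _ = _ := by rw [hy]; ring

end P004E.M
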