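import Vale.Agent.P004E.H3.Zi
import Vale.Agent.P004E.H185.Mert1

/-!
# P004E, module M (part 5): Mertens over the blocks
-/

open Finset Real

namespace P004E.M

open P004G
open P004G.E3W (mem_Ib mem_gp nb_ge nb_exp li_eq zi_pos sum_gp)
open P004E.Abel

/-- Mertens by partial summation -/
lemma mb {c : ℕ → ℝ} {κ C u₀ u₁ : ℝ} (h0 : 0 < u₀) (h01 : u₀ ≤ u₁)
    (hc : ∀ x : ℝ, 1 ≤ x → |∑ k ∈ Finset.Icc 0 ⌊x⌋₊, c k - κ * Real.log x| ≤ C) :
    |∑ k ∈ Finset.Ioc ⌊Real.exp u₀⌋₊ ⌊Real.exp u₁⌋₊, c k / Real.log k -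
      κ * Real.log (u₁ / u₀)| ≤ C * (3 / u₀) := by
  have hC : 0 ≤ C := (abs_nonneg _).trans (hc 1 le_rfl)
  have hu1 : 0 < u₁ := h0.trans_le h01
  have hne : ∀ u ∈ Set.Icc u₀ u₁, (u : ℂ) ≠ 0 := fun u hu => by
    have := (h0.trans_le hu.1).ne'
    exact_mod_cast this
  have h := abel_exp (c := c) (κ := κ) (C := C) (φ := fun u : ℝ => (u : ℂ)⁻¹)
    (φ' := fun u : ℝ => -((u : ℂ) ^ 2)⁻¹) h0.le h01 hc (fun u hu => by
      have h1 : HasDerivAt (fun u : ℝ => (u : ℂ)) 1 u := Complex.ofRealCLM.hasDerivAt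
      exact (h1.inv (hne u hu)).congr_deriv (by ring))
    ((ContinuousOn.inv₀ (by fun_prop) fun u hu => pow_ne_zero _ (hne u hu)).neg)
  have e1 : ∫ u in u₀..u₁, (u : ℂ)⁻¹ = ((Real.log (u₁ / u₀) : ℝ) : ℂ) := by
    rw [← integral_inv_of_pos h0 hu1, ← intervalIntegral.integral_ofReal]
    refine intervalIntegral.integral_congr fun u _ => ?_
    simp
  have e2 : ∑ k ∈ Finset.Ioc ⌊Real.exp u₀⌋₊ ⌊Real.exp u₁⌋₊,
      ((Real.log k : ℝ) : ℂ)⁻¹ * (c k : ℂ) =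
      ((∑ k ∈ Finset.Ioc ⌊Real.exp u₀⌋₊ ⌊Real.exp u₁⌋₊, c k / Real.log k : ℝ) : ℂ) := by
    rw [Complex.ofReal_sum]
    refine Finset.sum_congr rfl fun k _ => ?_
    rw [Complex.ofReal_div]
    ring
  have e3 : ∫ u in u₀..u₁, ‖-((u : ℂ) ^ 2)⁻¹‖ ≤ 1 / u₀ := by
    refine le_trans (le_of_eq ?_) (integral_inv_sq h0 h01)
    refine intervalIntegral.integral_congr fun u _ => ?_
    simp only [norm_neg, norm_inv, norm_pow, Complex.norm_real, Real.norm_eq_abs, sq_abs, one_div]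
  have e4 : ‖(u₀ : ℂ)⁻¹‖ = 1 / u₀ := by
    rw [norm_inv, Complex.norm_real, Real.norm_eq_abs, abs_of_pos h0, one_div]
  have e5 : ‖(u₁ : ℂ)⁻¹‖ ≤ 1 / u₀ := by
    rw [norm_inv, Complex.norm_real, Real.norm_eq_abs, abs_of_pos hu1, one_div]
    exact inv_anti₀ h0 h01
  rw [e1, e2, ← Complex.ofReal_mul, ← Complex.ofReal_sub, Complex.norm_real, Real.norm_eq_abs] at h
  refine h.trans ?_
  have e6 : ‖(u₀ : ℂ)⁻¹‖ + ‖(u₁ : ℂ)⁻¹‖ + ∫ u in u₀..u₁, ‖-((u : ℂ) ^ 2)⁻¹‖ ≤ 3 / u₀ := by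
    have : 3 / u₀ = 1 / u₀ + 1 / u₀ + 1 / u₀ := by ring
    linarith
  gcongr

variable [Crv] {y₀ θ z L : ℝ}

/-- the lower end of block `i` -/
noncomputable def lo (y₀ θ z L : ℝ) (i : ℕ) : ℝ :=
  if i < nb θ z L then max (Real.log y₀) (L * zi θ z (i + 1)) else Real.log y₀

omit [Crv] in
lemma lo_ge (i : ℕ) : Real.log y₀ ≤ lo y₀ θ z L i := by
  unfold lo
  split_ifs
  · exact le_max_left _ _
  · exact le_rfl

omit [Crv] in
lemma exp_lo (hy : 0 < y₀) (i : ℕ) (x : ℝ) : Real.exp (lo y₀ θ z L i) < x ↔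
    y₀ < x ∧ (i < nb θ z L → Real.exp (L * zi θ z (i + 1)) < x) := by
  unfold lo
  split_ifs with h
  · rw [Real.exp_monotone.map_max, Real.exp_log hy, max_lt_iff]
    constructor
    · rintro ⟨h1, h2⟩; exact ⟨h1, fun _ => h2⟩
    · rintro ⟨h1, h2⟩; exact ⟨h1, h2 h⟩
  · rw [Real.exp_log hy]
    constructor
    · intro h1; exact ⟨h1, fun h2 => absurd h2 h⟩
    · exact fun h => h.1

open scoped Classical in
lemma sum_Ib (hy : 0 < y₀) (i : ℕ) (f : ℕ → ℝ) : ∑ p ∈ Ib y₀ θ z L i, f p =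
    ∑ k ∈ Ioc ⌊Real.exp (lo y₀ θ z L i)⌋₊ ⌊Real.exp (L * zi θ z i)⌋₊,
      (if k.Prime ∧ ¬ k ∣ bd then f k else 0) := by
  rw [← Finset.sum_filter]
  refine Finset.sum_congr ?_ fun _ _ => rfl
  ext p
  rw [mem_Ib, mem_filter, mem_Ioc, Nat.floor_lt (Real.exp_pos _).le,
    Nat.le_floor_iff (Real.exp_pos _).le, exp_lo hy]
  tauto

lemma Ib_empty (hy : 0 < y₀) {i : ℕ} (h : L * zi θ z i < lo y₀ θ z L i) :
    Ib y₀ θ z L i = ∅ := by
  refine Finset.eq_empty_of_forall_notMem fun p hp => ?_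
  rw [mem_Ib] at hp
  have h2 := (exp_lo (θ := θ) (z := z) (L := L) hy i (p : ℝ)).2 hp.2.2.2
  have h3 := Real.exp_lt_exp.2 h
  linarith [hp.1]

/-- Mertens over the blocks -/
theorem mert_blocks (hM : StMert) : ∃ C : ℝ, 1 ≤ C ∧ ∀ y₀ θ z L : ℝ, 2 ≤ y₀ → 0 < θ → 0 < z →
    0 < L → 1 ≤ li θ z 0 → 1 ≤ L * z → ∀ i ≤ nb θ z L,
    ∑ p ∈ Ib y₀ θ z L i, (1 : ℝ) / p ≤ li θ z i + C ∧
    |∑ p ∈ Ib y₀ θ z L i, (lam p ^ 2 - 1) / p| ≤ C := by
  classical
  obtain ⟨C₁, hC₁, h₁⟩ := mert1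
  obtain ⟨C₂, hC₂, h₂⟩ := hM
  refine ⟨1 + 6 * C₁ + 6 * C₂, by linarith, fun y₀ θ z L hy hθ hz hL hl hLz i hi => ?_⟩
  have hy0 : 0 < y₀ := by linarith
  have hLi := nb_ge hLz hi
  have hli : 0 ≤ li θ z i := by
    have := P004G.E3W.li_one_le hz hθ hl i
    linarith
  rcases lt_or_ge (L * zi θ z i) (lo y₀ θ z L i) with hlt | hge
  · rw [Ib_empty hy0 hlt]
    simp only [Finset.sum_empty, abs_zero]
    constructor <;> linarith
  have hlog : 0.69 ≤ lo y₀ θ z L i := by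
    refine le_trans ?_ (lo_ge i)
    have h1 : Real.log 2 ≤ Real.log y₀ := Real.log_le_log (by norm_num) hy
    linarith [Real.log_two_gt_d9]
  have hlo0 : 0 < lo y₀ θ z L i := by linarith
  have h3lo : 3 / lo y₀ θ z L i ≤ 6 := by
    rw [div_le_iff₀ hlo0]; linarith
  have hk : ∀ (a : ℕ → ℝ) (k : ℕ), (if k.Prime ∧ ¬ k ∣ bd then a k * Real.log k / k else 0) /
      Real.log k = if k.Prime ∧ ¬ k ∣ bd then a k / k else 0 := by
    intro a k
    split_ifs with h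
    · have : Real.log k ≠ 0 := (Real.log_pos (by exact_mod_cast h.1.one_lt)).ne'
      field_simp
    · simp
  constructor
  · have h := mb (c := fun k => if k.Prime ∧ ¬ k ∣ bd then (1 : ℝ) * Real.log k / k else 0)
      (κ := 1) (C := C₁) hlo0 hge (fun x hx => by
        rw [sum_gp x (fun k => 1 * Real.log k / k)]
        have := h₁ x hx
        simpa using this)
    simp only [hk (fun _ => 1)] at h
    rw [← sum_Ib hy0] at h
    have h4 := (abs_le.1 h).2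
    have h5 : C₁ * (3 / lo y₀ θ z L i) ≤ C₁ * 6 := by gcongr
    have h6 : Real.log (L * zi θ z i / lo y₀ θ z L i) ≤ li θ z i + 1 := by
      rw [Real.log_div (by linarith) hlo0.ne']
      rcases Nat.eq_or_lt_of_le hi with h | h
      · have h7 : Real.log (L * zi θ z i) ≤ li θ z i := by
          rw [Real.log_le_iff_le_exp (by linarith), h]
          exact nb_exp hz hθ hl hL
        have h8 : -Real.log (lo y₀ θ z L i) ≤ 1 := by
          rw [← Real.log_inv, Real.log_le_iff_le_exp (by positivity)]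
          have : (lo y₀ θ z L i)⁻¹ ≤ 2 := by
            rw [inv_le_comm₀ hlo0 (by norm_num)]
            linarith
          linarith [Real.add_one_le_exp (1 : ℝ)]
        linarith
      · have h8 : L * zi θ z (i + 1) ≤ lo y₀ θ z L i := by
          unfold lo
          rw [if_pos h]
          exact le_max_right _ _
        have hz1 := zi_pos (θ := θ) hz (i + 1)
        have h9 : Real.log (L * zi θ z (i + 1)) ≤ Real.log (lo y₀ θ z L i) :=
          Real.log_le_log (by positivity) h8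
        have h10 : Real.log (L * zi θ z i) - Real.log (L * zi θ z (i + 1)) = li θ z i := by
          rw [Real.log_mul hL.ne' (zi_pos hz _).ne', Real.log_mul hL.ne' hz1.ne', li_eq hz]
          ring
        linarith
    linarith
  · have h := mb (c := fun k => if k.Prime ∧ ¬ k ∣ bd then (lam k ^ 2 - 1) * Real.log k / k else 0)
      (κ := 0) (C := C₂) hlo0 hge (fun x hx => by
        rw [sum_gp x (fun k => (lam k ^ 2 - 1) * Real.log k / k), zero_mul, sub_zero]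
        exact h₂ x hx)
    simp only [hk (fun k => lam k ^ 2 - 1)] at h
    rw [← sum_Ib hy0, zero_mul, sub_zero] at h
    have h5 : C₂ * (3 / lo y₀ θ z L i) ≤ C₂ * 6 := by gcongr
    linarith

end P004E.M
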