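import Vale.Agent.P004E.H357.M1
import Vale.Agent.P004G.H293.Blk

/-!
# P004E, module M (part 6): Dirichlet polynomials
-/

set_option linter.unusedSectionVars false

open Finset Real

namespace P004E.M

open P004G.H293 (ffx ffx_mul ffx_one ffx_prime)

/-- `F` is a Dirichlet polynomial over the primes in `I`, of length `≤ X` and `ℓ¹`-norm `≤ A` -/
def DP (I : Finset ℕ) (X A : ℝ) (F : (ℕ → ℝ) → ℝ) : Prop :=
  ∃ (S : Finset ℕ) (c : ℕ → ℝ), (∀ ω, F ω = ∑ a ∈ S, c a * ffx ω a) ∧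
    (∀ a ∈ S, a ≠ 0 ∧ (a : ℝ) ≤ X ∧ ∀ p : ℕ, p.Prime → p ∣ a → p ∈ I) ∧ ∑ a ∈ S, |c a| ≤ A

variable [P004G.Crv] {I : Finset ℕ} {X Y A B : ℝ} {F G : (ℕ → ℝ) → ℝ}

lemma DP.congr (h : DP I X A F) (hFG : ∀ ω, F ω = G ω) : DP I X A G := by
  obtain ⟨S, c, h1, h2, h3⟩ := h
  exact ⟨S, c, fun ω => by rw [← hFG, h1], h2, h3⟩

lemma DP.mono (h : DP I X A F) (hX : X ≤ Y) (hA : A ≤ B) : DP I Y B F := by
  obtain ⟨S, c, h1, h2, h3⟩ := h
  exact ⟨S, c, h1, fun a ha => ⟨(h2 a ha).1, (h2 a ha).2.1.trans hX, (h2 a ha).2.2⟩, h3.trans hA⟩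

lemma DP.const (k : ℝ) : DP I 1 |k| (fun _ => k) := by
  refine ⟨{1}, fun _ => k, fun ω => by rw [Finset.sum_singleton, ffx_one, mul_one],
    fun a ha => ?_, by simp⟩
  rw [mem_singleton] at ha
  subst ha
  exact ⟨one_ne_zero, by simp, fun p hp hd => absurd (Nat.dvd_one.1 hd) hp.ne_one⟩

lemma DP.add (hF : DP I X A F) (hG : DP I X B G) : DP I X (A + B) (fun ω => F ω + G ω) := by
  classical
  obtain ⟨S, c, h1, h2, h3⟩ := hF
  obtain ⟨T, d, k1, k2, k3⟩ := hG
  refine ⟨S ∪ T, fun a => (if a ∈ S then c a else 0) + (if a ∈ T then d a else 0), fun ω => ?_,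
    fun a ha => ?_, ?_⟩
  · simp only
    rw [h1, k1]
    simp_rw [add_mul]
    rw [Finset.sum_add_distrib]
    congr 1
    · rw [← Finset.sum_subset Finset.subset_union_left (f := fun a =>
        (if a ∈ S then c a else 0) * ffx ω a) (fun x _ hx => by rw [if_neg hx, zero_mul])]
      exact Finset.sum_congr rfl fun a ha => by rw [if_pos ha]
    · rw [← Finset.sum_subset Finset.subset_union_right (f := fun a =>
        (if a ∈ T then d a else 0) * ffx ω a) (fun x _ hx => by rw [if_neg hx, zero_mul])]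
      exact Finset.sum_congr rfl fun a ha => by rw [if_pos ha]
  · rcases mem_union.1 ha with h | h
    · exact h2 a h
    · exact k2 a h
  · calc ∑ a ∈ S ∪ T, |(if a ∈ S then c a else 0) + (if a ∈ T then d a else 0)|
        ≤ ∑ a ∈ S ∪ T, (|if a ∈ S then c a else 0| + |if a ∈ T then d a else 0|) :=
          Finset.sum_le_sum fun a _ => abs_add_le _ _
      _ = ∑ a ∈ S, |c a| + ∑ a ∈ T, |d a| := by
          rw [Finset.sum_add_distrib]
          congr 1
          · rw [← Finset.sum_subset Finset.subset_union_left (f := fun a =>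
              |if a ∈ S then c a else 0|) (fun x _ hx => by rw [if_neg hx, abs_zero])]
            exact Finset.sum_congr rfl fun a ha => by rw [if_pos ha]
          · rw [← Finset.sum_subset Finset.subset_union_right (f := fun a =>
              |if a ∈ T then d a else 0|) (fun x _ hx => by rw [if_neg hx, abs_zero])]
            exact Finset.sum_congr rfl fun a ha => by rw [if_pos ha]
      _ ≤ _ := add_le_add h3 k3

lemma DP.nonneg (h : DP I X A F) : 0 ≤ A := by
  obtain ⟨S, c, h1, h2, h3⟩ := h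
  exact (Finset.sum_nonneg fun _ _ => abs_nonneg _).trans h3

lemma DP.mul (hF : DP I X A F) (hG : DP I Y B G) (hX : 0 ≤ X) :
    DP I (X * Y) (A * B) (fun ω => F ω * G ω) := by
  classical
  have hA := hF.nonneg
  obtain ⟨S, c, h1, h2, h3⟩ := hF
  obtain ⟨T, d, k1, k2, k3⟩ := hG
  set m : ℕ × ℕ → ℕ := fun x => x.1 * x.2 with hm
  refine ⟨(S ×ˢ T).image m, fun a => ∑ x ∈ (S ×ˢ T) with m x = a, c x.1 * d x.2, fun ω => ?_,
    fun a ha => ?_, ?_⟩
  · simp only
    rw [h1, k1, Finset.sum_mul_sum, ← Finset.sum_product']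
    have h4 : ∀ x ∈ S ×ˢ T, c x.1 * ffx ω x.1 * (d x.2 * ffx ω x.2) =
        c x.1 * d x.2 * ffx ω (m x) := by
      intro x hx
      rw [mem_product] at hx
      rw [hm, ffx_mul ω (h2 _ hx.1).1 (k2 _ hx.2).1]
      ring
    rw [Finset.sum_congr rfl h4, ← Finset.sum_fiberwise_of_maps_to (g := m)
      (fun x hx => Finset.mem_image_of_mem m hx)]
    refine Finset.sum_congr rfl fun a _ => ?_
    rw [Finset.sum_mul]
    refine Finset.sum_congr rfl fun x hx => ?_
    rw [(mem_filter.1 hx).2]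
  · obtain ⟨x, hx, rfl⟩ := mem_image.1 ha
    rw [mem_product] at hx
    obtain ⟨a1, a2, a3⟩ := h2 _ hx.1
    obtain ⟨b1, b2, b3⟩ := k2 _ hx.2
    refine ⟨mul_ne_zero a1 b1, ?_, fun p hp hd => ?_⟩
    · simp only [hm]
      push_cast
      gcongr
    · rcases hp.dvd_mul.1 hd with h | h
      · exact a3 p hp h
      · exact b3 p hp h
  · calc ∑ a ∈ (S ×ˢ T).image m, |∑ x ∈ (S ×ˢ T) with m x = a, c x.1 * d x.2|
        ≤ ∑ a ∈ (S ×ˢ T).image m, ∑ x ∈ (S ×ˢ T) with m x = a, |c x.1| * |d x.2| := by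
          refine Finset.sum_le_sum fun a _ => (Finset.abs_sum_le_sum_abs _ _).trans (le_of_eq ?_)
          exact Finset.sum_congr rfl fun x _ => abs_mul _ _
      _ = ∑ x ∈ S ×ˢ T, |c x.1| * |d x.2| :=
          Finset.sum_fiberwise_of_maps_to (g := m)
            (fun x hx => Finset.mem_image_of_mem m hx) _
      _ = (∑ a ∈ S, |c a|) * ∑ b ∈ T, |d b| := by
          rw [Finset.sum_mul_sum, ← Finset.sum_product']
      _ ≤ A * B := mul_le_mul h3 k3 (Finset.sum_nonneg fun _ _ => abs_nonneg _) hA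

lemma DP.pow (hF : DP I X A F) (hX : 0 ≤ X) (n : ℕ) :
    DP I (X ^ n) (A ^ n) (fun ω => F ω ^ n) := by
  induction n with
  | zero =>
    have := DP.const (I := I) 1
    simpa using this
  | succ n ih =>
    rw [pow_succ, pow_succ]
    exact (ih.mul hF (by positivity)).congr fun ω => (pow_succ _ _).symm

lemma DP.sum {ι : Type*} (J : Finset ι) {f : ι → (ℕ → ℝ) → ℝ} {α : ι → ℝ} (hX : 1 ≤ X)
    (h : ∀ j ∈ J, DP I X (α j) (f j)) : DP I X (∑ j ∈ J, α j) (fun ω => ∑ j ∈ J, f j ω) := by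
  classical
  induction J using Finset.induction_on with
  | empty =>
    simp only [Finset.sum_empty]
    have := DP.const (I := I) 0
    rw [abs_zero] at this
    exact this.mono hX le_rfl
  | insert j J hj ih =>
    simp only [Finset.sum_insert hj]
    exact (h j (mem_insert_self _ _)).add (ih fun i hi => h i (mem_insert_of_mem hi))

lemma DP.lin {T : ℝ} (hI : ∀ p ∈ I, p.Prime) (hIT : ∀ p ∈ I, (p : ℝ) ≤ Real.exp T)
    (a : ℕ → ℝ) : DP I (Real.exp T) (∑ p ∈ I, |a p|) (M.lin I a) := by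
  refine ⟨I, a, fun ω => ?_, fun p hp => ?_, le_rfl⟩
  · unfold M.lin
    exact Finset.sum_congr rfl fun p hp => by rw [ffx_prime ω (hI p hp)]
  · refine ⟨(hI p hp).ne_zero, hIT p hp, fun q hq hd => ?_⟩
    rw [(Nat.prime_dvd_prime_iff_eq hq (hI p hp)).1 hd]
    exact hp

/-- a polynomial in a Dirichlet polynomial -/
theorem DP.poly (hF : DP I X A F) (hX : 1 ≤ X) (hA : 1 ≤ A) (Q : Polynomial ℝ) (k : ℝ) {q : ℝ}
    (hq : ∀ n, |Q.coeff n| ≤ q) :
    DP I (X ^ Q.natDegree) (|k| * ((Q.natDegree + 1) * q * A ^ Q.natDegree))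
      (fun ω => k * Q.eval (F ω)) := by
  have h1 : ∀ j ∈ range (Q.natDegree + 1), DP I (X ^ Q.natDegree) (q * A ^ Q.natDegree)
      (fun ω => Q.coeff j * F ω ^ j) := by
    intro j hj
    have hj' : j ≤ Q.natDegree := by rw [mem_range] at hj; omega
    have h2 := (DP.const (I := I) (Q.coeff j)).mul (hF.pow (by linarith) j) zero_le_one
    refine h2.mono ?_ ?_
    · rw [one_mul]
      exact pow_le_pow_right₀ hX hj'
    · have h3 : A ^ j ≤ A ^ Q.natDegree := pow_le_pow_right₀ hA hj'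
      have h4 := hq j
      have h5 : 0 ≤ q := (abs_nonneg _).trans h4
      have h6 : 0 ≤ A ^ j := by positivity
      exact mul_le_mul h4 h3 h6 h5
  have h2 := DP.sum _ (one_le_pow₀ hX) h1
  have h3 := (DP.const (I := I) k).mul h2 zero_le_one
  rw [one_mul, Finset.sum_const, card_range, nsmul_eq_mul] at h3
  refine (h3.congr fun ω => ?_).mono le_rfl (le_of_eq (by push_cast; ring))
  rw [Polynomial.eval_eq_sum_range]

end P004E.M
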