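import Vale.Agent.P004E.H357.M4
import Vale.Agent.P004E.H357.M5
import Vale.Agent.P004E.H357.M6

/-!
# P004E, module M (part 7): one block
-/

open Finset Real

namespace P004E.M

open P004.H293 (EE E1 EE_nonneg EE_mono EE_add EE_sub EE_mul_left EE_const EE_prod E1_const
  E1_mono sum_log_div)
open P004G
open P004G.H293 (Lp inv_sqrt_le inv_sqrt_sq abs_lam_le ffx)

variable [Crv]

lemma kap_le {I : Finset ℕ} {l K : ℝ}
    (h1 : ∑ p ∈ I, (1 : ℝ) / p ≤ l + K) (h2 : |∑ p ∈ I, (lam p ^ 2 - 1) / p| ≤ K) :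
    kap I ≤ Real.exp (l / 2 + K) := by
  unfold kap
  apply Real.exp_le_exp.2
  have e : ∑ p ∈ I, (1 / (p : ℝ)) * (1 - lam p ^ 2 / 2) =
      (∑ p ∈ I, (1 : ℝ) / p - ∑ p ∈ I, (lam p ^ 2 - 1) / p) / 2 := by
    rw [← Finset.sum_sub_distrib, Finset.sum_div]
    refine Finset.sum_congr rfl fun p _ => ?_
    ring
  rw [e]
  linarith [(abs_le.1 h2).1]

lemma kap_pos (I : Finset ℕ) : 0 < kap I := Real.exp_pos _

lemma V_le {I : Finset ℕ} (hI : ∀ p ∈ I, p.Prime) {l K : ℝ} (hl : 2 * K ≤ l)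
    (h1 : ∑ p ∈ I, (1 : ℝ) / p ≤ l + K) (h2 : |∑ p ∈ I, (lam p ^ 2 - 1) / p| ≤ K) :
    ∑ p ∈ I, aa p ^ 2 ≤ 2 * l := by
  have e : ∑ p ∈ I, aa p ^ 2 = ∑ p ∈ I, (1 : ℝ) / p + ∑ p ∈ I, (lam p ^ 2 - 1) / p := by
    rw [← Finset.sum_add_distrib]
    refine Finset.sum_congr rfl fun p hp => ?_
    unfold aa
    rw [mul_pow, inv_sqrt_sq (hI p hp).pos]
    ring
  rw [e]
  linarith [(abs_le.1 h2).2]

lemma sum_aa {I : Finset ℕ} (hI : ∀ p ∈ I, p.Prime ∧ 3 ≤ p) {T : ℝ} (hT : 1 ≤ T)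
    (hIT : ∀ p ∈ I, (p : ℝ) ≤ Real.exp T) : ∑ p ∈ I, |aa p| ≤ Real.exp (2 * T) := by
  have h1 : ∀ p ∈ I, |aa p| ≤ 2 := by
    intro p hp
    unfold aa
    rw [abs_mul, abs_of_nonneg (by positivity : 0 ≤ (p : ℝ) ^ (-(1 / 2) : ℝ))]
    have h2 := abs_lam_le pfCoef (hI p hp).1
    have h3 := inv_sqrt_le (hI p hp).2
    calc |lam p| * (p : ℝ) ^ (-(1 / 2) : ℝ) ≤ 2 * (3 / 5) := by gcongr
      _ ≤ 2 := by norm_num
  have h2 : (I.card : ℝ) ≤ Real.exp T := by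
    have h3 : I ⊆ Icc 1 ⌊Real.exp T⌋₊ := by
      intro p hp
      rw [mem_Icc]
      exact ⟨(hI p hp).1.one_lt.le, Nat.le_floor (hIT p hp)⟩
    have h4 := Finset.card_le_card h3
    rw [Nat.card_Icc, Nat.add_sub_cancel] at h4
    have h5 : (I.card : ℝ) ≤ (⌊Real.exp T⌋₊ : ℝ) := by exact_mod_cast h4
    exact h5.trans (Nat.floor_le (Real.exp_pos _).le)
  have h3 : 2 ≤ Real.exp T := by linarith [Real.add_one_le_exp T]
  calc ∑ p ∈ I, |aa p| ≤ ∑ p ∈ I, (2 : ℝ) := Finset.sum_le_sum h1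
    _ = I.card * 2 := by rw [Finset.sum_const, nsmul_eq_mul]
    _ ≤ Real.exp T * Real.exp T := by gcongr
    _ = Real.exp (2 * T) := by rw [← Real.exp_add]; congr 1; ring

/-- the constant of the blocks -/
noncomputable def C0 (η C K : ℝ) : ℝ := 1 / η + 4 * K + 4 * C + 135 * C ^ 4 + CM

/-- one block -/
theorem blk_one {η l C Z K : ℝ} {R : ℝ → ℝ} {Q : Polynomial ℝ} (D : Psi η l C Z R Q)
    (hK : 1 ≤ K) (hl : 2 * K ≤ l) {I : Finset ℕ} (hI : ∀ p ∈ I, p.Prime ∧ 3 ≤ p) {T : ℝ}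
    (hT : 1 ≤ T) (hIT : ∀ p ∈ I, (p : ℝ) ≤ Real.exp T)
    (h1 : ∑ p ∈ I, (1 : ℝ) / p ≤ l + K) (h2 : |∑ p ∈ I, (lam p ^ 2 - 1) / p| ≤ K) :
    ∃ (S : Finset ℕ) (c : ℕ → ℝ),
      (∀ a ∈ S, a ≠ 0 ∧ (a : ℝ) ≤ Real.exp (C0 η C K * T * Real.exp (η * l)) ∧
        ∀ p : ℕ, p.Prime → p ∣ a → p ∈ I) ∧
      ∑ a ∈ S, |c a| ≤ Real.exp (C0 η C K * T * Real.exp (η * l)) ∧
      EE I (fun ω => (∑ a ∈ S, c a * ffx ω a) ^ 2) ≤ Real.exp ((1 + η) * l + C0 η C K) ∧
      EE I (fun ω => (∑ a ∈ S, c a * ffx ω a) ^ 4) ≤ Real.exp (C0 η C K * (1 + l)) ∧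
      ∀ ζ : ℂ, 0 ≤ ζ.re → ‖ζ‖ * T ≤ 1 →
        EE I (fun ω => ‖((∑ a ∈ S, c a * ffx ω a : ℝ) : ℂ) *
          (∏ p ∈ I, Lp p (1 + ζ) (ω p)) - 1‖ ^ 2) ≤
        C0 η C K * (Real.exp (-(η ^ 2 / 1024) * l) + ‖ζ‖ ^ 2 * (∑ p ∈ I, Real.log p ^ 2 / p) +
          ∑ p ∈ I, (p : ℝ) ^ (-3 / 2 : ℝ)) := by
  have hη := D.hη
  have hη1 := D.hη1
  have hC := D.hC
  have hl1 := D.hl
  have hI1 : ∀ p ∈ I, 1 ≤ p := fun p hp => (hI p hp).1.one_lt.le
  have hCM := one_le_CM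
  have hV := V_le (fun p hp => (hI p hp).1) hl h1 h2
  have hk := kap_le h1 h2
  have hk0 := kap_pos I
  have hC4 : 1 ≤ C ^ 4 := one_le_pow₀ hC
  have hηinv : 0 < 1 / η := by positivity
  have hT0 : 0 ≤ T := by linarith
  set e := Real.exp (η * l) with he
  have he1 : 1 ≤ e := Real.one_le_exp (by positivity)
  have hle : l ≤ 1 / η * e := by
    rw [one_div, ← div_eq_inv_mul, le_div_iff₀ hη]
    have := Real.add_one_le_exp (η * l)
    linarith
  have hTe : 1 ≤ T * e := by nlinarith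
  have heT : e ≤ T * e := by nlinarith
  obtain ⟨S, c, s1, s2, s3⟩ := DP.poly ((DP.lin (fun p hp => (hI p hp).1) hIT aa).mono le_rfl
    (sum_aa hI hT hIT)) (Real.one_le_exp hT0) (Real.one_le_exp (by linarith)) Q (kap I)
    (q := Real.exp (C * e)) D.coef
  have hdeg : (Q.natDegree : ℝ) ≤ C * e := D.deg
  have hF : ∀ ω, ∑ a ∈ S, c a * ffx ω a = kap I * Q.eval (lin I aa ω) := fun ω => (s1 ω).symm
  refine ⟨S, c, ?_⟩
  simp only [hF]
  refine ⟨fun a ha => ⟨(s2 a ha).1, (s2 a ha).2.1.trans ?_, (s2 a ha).2.2⟩, s3.trans ?_,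
    ?_, ?_, ?_⟩
  · rw [← Real.exp_nat_mul]
    apply Real.exp_le_exp.2
    have h3 : (Q.natDegree : ℝ) * T ≤ C * e * T := by gcongr
    have h4 : C ≤ C0 η C K := by unfold C0; linarith
    calc (Q.natDegree : ℝ) * T ≤ C * e * T := h3
      _ = C * (T * e) := by ring
      _ ≤ C0 η C K * (T * e) := by gcongr
      _ = _ := by ring
  · rw [abs_of_pos hk0]
    have h3 : ((Q.natDegree : ℝ) + 1) ≤ Real.exp (C * e) :=
      (Real.add_one_le_exp _).trans (Real.exp_le_exp.2 hdeg)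
    have h4 : Real.exp (2 * T) ^ Q.natDegree ≤ Real.exp (2 * T * (C * e)) := by
      rw [← Real.exp_nat_mul]
      apply Real.exp_le_exp.2
      calc (Q.natDegree : ℝ) * (2 * T) ≤ (C * e) * (2 * T) := by gcongr
        _ = _ := by ring
    calc kap I * (((Q.natDegree : ℝ) + 1) * Real.exp (C * e) * Real.exp (2 * T) ^ Q.natDegree)
        ≤ Real.exp (l / 2 + K) * (Real.exp (C * e) * Real.exp (C * e) *
            Real.exp (2 * T * (C * e))) := by
          gcongr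
      _ = Real.exp (l / 2 + K + (2 * (C * e) + 2 * (C * (T * e)))) := by
          rw [← Real.exp_add, ← Real.exp_add, ← Real.exp_add]
          congr 1; ring
      _ ≤ _ := by
          apply Real.exp_le_exp.2
          have a1 : l / 2 ≤ 1 / η * (T * e) := by
            calc l / 2 ≤ l := by linarith
              _ ≤ 1 / η * e := hle
              _ ≤ _ := by gcongr
          have a2 : K ≤ K * (T * e) := by nlinarith
          have a3 : C * e ≤ C * (T * e) := by gcongr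
          have a4 : (1 / η + K + 4 * C) * (T * e) ≤ C0 η C K * (T * e) := by
            gcongr
            unfold C0
            linarith
          nlinarith
  · have h3 := D.two hI1 aa hV
    have e1 : (fun ω => (kap I * Q.eval (lin I aa ω)) ^ 2) =
        fun ω => kap I ^ 2 * Q.eval (lin I aa ω) ^ 2 := by funext ω; ring
    rw [e1, EE_mul_left]
    have hk2 : kap I ^ 2 ≤ Real.exp (l + 2 * K) := by
      calc kap I ^ 2 ≤ Real.exp (l / 2 + K) ^ 2 := by gcongr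
        _ = _ := by rw [← Real.exp_nat_mul]; congr 1; push_cast; ring
    have h4 : 15 * C ^ 2 ≤ Real.exp (135 * C ^ 4) := by
      have h5 : C ^ 2 ≤ C ^ 4 := pow_le_pow_right₀ hC (by norm_num)
      linarith [Real.add_one_le_exp (135 * C ^ 4)]
    have hnn : 0 ≤ EE I (fun ω => Q.eval (lin I aa ω) ^ 2) :=
      EE_nonneg hI1 fun ω _ => by positivity
    calc kap I ^ 2 * EE I (fun ω => Q.eval (lin I aa ω) ^ 2)
        ≤ Real.exp (l + 2 * K) * (15 * C ^ 2 * Real.exp (η * l / 2)) := by gcongr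
      _ ≤ Real.exp (l + 2 * K) * (Real.exp (135 * C ^ 4) * Real.exp (η * l / 2)) := by gcongr
      _ = Real.exp (l + 2 * K + (135 * C ^ 4 + η * l / 2)) := by
          rw [← Real.exp_add, ← Real.exp_add]
      _ ≤ _ := by
          apply Real.exp_le_exp.2
          have : 0 ≤ η * l := by positivity
          unfold C0
          nlinarith
  · have h3 := D.four hI1 aa hV
    have e1 : (fun ω => (kap I * Q.eval (lin I aa ω)) ^ 4) =
        fun ω => kap I ^ 4 * Q.eval (lin I aa ω) ^ 4 := by funext ω; ring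
    rw [e1, EE_mul_left]
    have hk2 : kap I ^ 4 ≤ Real.exp (2 * l + 4 * K) := by
      calc kap I ^ 4 ≤ Real.exp (l / 2 + K) ^ 4 := by gcongr
        _ = _ := by rw [← Real.exp_nat_mul]; congr 1; push_cast; ring
    have h4 : 135 * C ^ 4 ≤ Real.exp (135 * C ^ 4) := by
      linarith [Real.add_one_le_exp (135 * C ^ 4)]
    have hnn : 0 ≤ EE I (fun ω => Q.eval (lin I aa ω) ^ 4) :=
      EE_nonneg hI1 fun ω _ => by positivity
    calc kap I ^ 4 * EE I (fun ω => Q.eval (lin I aa ω) ^ 4)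
        ≤ Real.exp (2 * l + 4 * K) * (135 * C ^ 4 * Real.exp (η * l)) := by gcongr
      _ ≤ Real.exp (2 * l + 4 * K) * (Real.exp (135 * C ^ 4) * Real.exp (η * l)) := by gcongr
      _ = Real.exp (2 * l + 4 * K + (135 * C ^ 4 + η * l)) := by
          rw [← Real.exp_add, ← Real.exp_add]
      _ ≤ _ := by
          apply Real.exp_le_exp.2
          have a1 : η * l ≤ l := by nlinarith
          have a2 : 3 * l ≤ (C0 η C K) * l := by
            gcongr
            unfold C0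
            linarith
          have a3 : 4 * K + 135 * C ^ 4 ≤ C0 η C K := by unfold C0; linarith
          nlinarith
  · intro ζ h0 hζ
    have h3 := close_main D hI hT hIT hV h0 hζ
    refine h3.trans ?_
    have : 0 ≤ Real.exp (-(η ^ 2 / 1024) * l) + ‖ζ‖ ^ 2 * (∑ p ∈ I, Real.log p ^ 2 / p) +
        ∑ p ∈ I, (p : ℝ) ^ (-3 / 2 : ℝ) := by
      have a1 : 0 ≤ ∑ p ∈ I, Real.log p ^ 2 / p := Finset.sum_nonneg fun p _ => by positivity
      have a2 : 0 ≤ ∑ p ∈ I, (p : ℝ) ^ (-3 / 2 : ℝ) := Finset.sum_nonneg fun p _ => by positivity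
      positivity
    have : CM ≤ C0 η C K := by unfold C0; linarith
    gcongr

end P004E.M
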