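import Vale.Agent.P004E.H357.M7

/-!
# P004E, module M (part 8): all the blocks
-/

open Finset Real

namespace P004E.M

open P004.H293 (EE)
open P004G
open P004G.H293 (Lp ffx three_le)
open P004G.E3W (mem_Ib nb_ge)

variable [Crv]

/-- the block data, `close` for `‖s - 1‖ L z_i ≤ 1` -/
structure Ok (C₀ c₀ η y₀ θ z L : ℝ) (S : ℕ → Finset ℕ) (c : ℕ → ℕ → ℝ) : Prop where
  supp : ∀ i ≤ nb θ z L, ∀ a ∈ S i, Good a ∧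
    (a : ℝ) ≤ Real.exp (C₀ * (L * zi θ z i) * Real.exp (η * li θ z i)) ∧
    ∀ p : ℕ, p.Prime → p ∣ a → p ∈ Ib y₀ θ z L i
  coef : ∀ i ≤ nb θ z L, ∑ a ∈ S i, |c i a| ≤
    Real.exp (C₀ * (L * zi θ z i) * Real.exp (η * li θ z i))
  two : ∀ i ≤ nb θ z L, EE (Ib y₀ θ z L i) (fun ω => Mi S c i (ffx ω) ^ 2) ≤
    Real.exp ((1 + η) * li θ z i + C₀)
  four : ∀ i ≤ nb θ z L, EE (Ib y₀ θ z L i) (fun ω => Mi S c i (ffx ω) ^ 4) ≤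
    Real.exp (C₀ * (1 + li θ z i))
  close : ∀ i ≤ nb θ z L, ∀ s : ℂ, 1 ≤ s.re → s.re ≤ 2 → ‖s - 1‖ * (L * zi θ z i) ≤ 1 →
    EE (Ib y₀ θ z L i) (fun ω =>
      ‖(Mi S c i (ffx ω) : ℂ) * (∏ p ∈ Ib y₀ θ z L i, Lp p s (ω p)) - 1‖ ^ 2) ≤
    C₀ * (Real.exp (-c₀ * li θ z i) +
      ‖s - 1‖ ^ 2 * (∑ p ∈ Ib y₀ θ z L i, Real.log p ^ 2 / p) +
      ∑ p ∈ Ib y₀ θ z L i, (p : ℝ) ^ (-3 / 2 : ℝ))

theorem blk_all (hM : StMert) {η : ℝ} (hη : 0 < η) (hη1 : η ≤ 1) : ∃ C₀ c₀ : ℝ, 1 ≤ C₀ ∧ 0 < c₀ ∧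
    ∀ y₀ θ : ℝ, 2 ≤ y₀ → 0 < θ → θ ≤ 1 / 10 → ∃ z₀ : ℝ, 0 < z₀ ∧ z₀ < 1 ∧
      ∀ z : ℝ, 0 < z → z ≤ z₀ → ∃ L₀ : ℝ, ∀ L : ℝ, L₀ ≤ L →
        ∃ (S : ℕ → Finset ℕ) (c : ℕ → ℕ → ℝ), Ok C₀ c₀ η y₀ θ z L S c := by
  obtain ⟨C, hC, hP⟩ := exists_Psi hη hη1
  obtain ⟨K, hK, hB⟩ := mert_blocks hM
  have hC0 : 1 ≤ C0 η C K := by
    have := one_le_CM
    have : 0 < 1 / η := by positivity
    have : 1 ≤ C ^ 4 := one_le_pow₀ hC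
    unfold C0
    linarith
  refine ⟨C0 η C K, η ^ 2 / 1024, hC0, by positivity, fun y₀ θ hy hθ _ => ?_⟩
  refine ⟨Real.exp (-(2 * K / θ)), Real.exp_pos _, ?_, fun z hz hz0 => ?_⟩
  · rw [Real.exp_lt_one_iff]
    have : 0 < 2 * K / θ := by positivity
    linarith
  have hl0 : 2 * K ≤ li θ z 0 := by
    unfold li
    rw [P004G.E3W.zi_zero, one_div, Real.log_inv]
    have h1 : Real.log z ≤ -(2 * K / θ) := (Real.log_le_iff_le_exp hz).2 hz0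
    have h2 : θ * (2 * K / θ) ≤ θ * -Real.log z := by
      gcongr
      linarith
    rwa [mul_div_cancel₀ _ hθ.ne'] at h2
  have hl1 : 1 ≤ li θ z 0 := by linarith
  refine ⟨1 / z, fun L hL => ?_⟩
  have hL0 : 0 < L := lt_of_lt_of_le (by positivity) hL
  have hLz : 1 ≤ L * z := by rwa [div_le_iff₀ hz] at hL
  have hli : ∀ i, 2 * K ≤ li θ z i := by
    intro i
    have h1 := P004G.E3W.li_ge (θ := θ) hz hθ (by linarith) i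
    have h2 : 0 ≤ li θ z 0 * (θ * i) := by positivity
    nlinarith
  have key : ∀ i : ℕ, ∃ (S : Finset ℕ) (c : ℕ → ℝ), i ≤ nb θ z L →
      (∀ a ∈ S, a ≠ 0 ∧ (a : ℝ) ≤ Real.exp (C0 η C K * (L * zi θ z i) * Real.exp (η * li θ z i)) ∧
        ∀ p : ℕ, p.Prime → p ∣ a → p ∈ Ib y₀ θ z L i) ∧
      ∑ a ∈ S, |c a| ≤ Real.exp (C0 η C K * (L * zi θ z i) * Real.exp (η * li θ z i)) ∧
      EE (Ib y₀ θ z L i) (fun ω => (∑ a ∈ S, c a * ffx ω a) ^ 2) ≤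
        Real.exp ((1 + η) * li θ z i + C0 η C K) ∧
      EE (Ib y₀ θ z L i) (fun ω => (∑ a ∈ S, c a * ffx ω a) ^ 4) ≤
        Real.exp (C0 η C K * (1 + li θ z i)) ∧
      ∀ ζ : ℂ, 0 ≤ ζ.re → ‖ζ‖ * (L * zi θ z i) ≤ 1 →
        EE (Ib y₀ θ z L i) (fun ω => ‖((∑ a ∈ S, c a * ffx ω a : ℝ) : ℂ) *
          (∏ p ∈ Ib y₀ θ z L i, Lp p (1 + ζ) (ω p)) - 1‖ ^ 2) ≤
        C0 η C K * (Real.exp (-(η ^ 2 / 1024) * li θ z i) +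
          ‖ζ‖ ^ 2 * (∑ p ∈ Ib y₀ θ z L i, Real.log p ^ 2 / p) +
          ∑ p ∈ Ib y₀ θ z L i, (p : ℝ) ^ (-3 / 2 : ℝ)) := by
    intro i
    by_cases hi : i ≤ nb θ z L
    · obtain ⟨R, Q, Z, D⟩ := hP (li θ z i) (by linarith [hli i])
      obtain ⟨b1, b2⟩ := hB y₀ θ z L hy hθ hz hL0 hl1 hLz i hi
      obtain ⟨S, c, h⟩ := blk_one D hK (hli i) (I := Ib y₀ θ z L i) (T := L * zi θ z i)
        (fun p hp => ⟨(mem_Ib.1 hp).2.1, three_le (mem_Ib.1 hp).2.1 (mem_Ib.1 hp).2.2.1⟩)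
        (nb_ge hLz hi) (fun p hp => (mem_Ib.1 hp).1) b1 b2
      exact ⟨S, c, fun _ => h⟩
    · exact ⟨∅, fun _ => 0, fun h => absurd h hi⟩
  choose S c h using key
  refine ⟨S, c, ⟨fun i hi a ha => ?_, fun i hi => (h i hi).2.1, fun i hi => (h i hi).2.2.1,
    fun i hi => (h i hi).2.2.2.1, fun i hi s hs _ hsz => ?_⟩⟩
  · obtain ⟨a1, a2, a3⟩ := (h i hi).1 a ha
    refine ⟨⟨a1, ?_⟩, a2, a3⟩
    refine Nat.Coprime.symm (Nat.coprime_of_dvd fun p hp h1 h2 => ?_)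
    exact (mem_Ib.1 (a3 p hp h2)).2.2.1 h1
  · have h1 := (h i hi).2.2.2.2 (s - 1) (by simp; linarith) hsz
    rw [show (1 : ℂ) + (s - 1) = s by ring] at h1
    exact h1

end P004E.M
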