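import Vale.Agent.P004E.H357.M8

/-!
# P004E, module M (part 9): `StBlk`
-/

open Finset Real

namespace P004E

open P004G

variable [Crv]

/-- **Module M**: existence of the blocks of the mollifier. -/
theorem pfBlk (hM : StMert) : StBlk := by
  intro η hη hη1
  obtain ⟨C₀, c₀, h1, h2, h⟩ := M.blk_all hM hη hη1
  refine ⟨C₀, c₀, h1, h2, fun y₀ θ hy hθ hθ1 => ?_⟩
  obtain ⟨z₀, a1, a2, a3⟩ := h y₀ θ hy hθ hθ1
  refine ⟨z₀, a1, a2, fun z hz hz0 => ?_⟩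
  obtain ⟨L₀, b⟩ := a3 z hz hz0
  refine ⟨L₀, fun L hL => ?_⟩
  obtain ⟨S, c, d⟩ := b L hL
  exact ⟨S, c, ⟨d.supp, d.coef, d.two, d.four, d.close⟩⟩

end P004E
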